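import Vale.Agent.P210.Defs

/-! P210 Avg: averages of segment costs (helper names end with _Avg). `seg_meas`: `Measurable.lintegral_prod_right'`.
`seg_avg`: `‖y' - y‖ ≤ 2 r`; with `W' = indicator (ball x r) W` (the ball is convex) and `t ≥ 1 / 2`: `∫⁻ y', W' (y + t • (y' - y)) = ofReal (t ^ n)⁻¹ * ∫⁻ W' ≤ 2 ^ n ∫⁻ W'`
(`Measure.map_addHaar_smul`, `lintegral_map`, translation invariance `lintegral_add_left_eq_self`); for `t ≤ 1 / 2` integrate in `y` first: `y + t • (y' - y) = y' + (1 - t) • (y - y')`; `lintegral_lintegral_swap`.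
`avg_step`: integrate the hypothesis over `S × S'`. -/

namespace Vale.Agent.P210

open Set Filter Topology Metric MeasureTheory
open scoped ENNReal

noncomputable section

variable {n : ℕ} {Ω : Set (E n)}
  {W : E n → ℝ≥0∞}

theorem meas_Avg (hW : Measurable W) :
    Measurable fun q : (E n × E n) × ℝ => W (q.1.1 + q.2 • (q.1.2 - q.1.1)) :=
  hW.comp (Continuous.measurable (by fun_prop))

theorem seg_meas (hW : Measurable W) : Measurable fun p : E n × E n => seg W p.1 p.2 := by
  refine Measurable.lintegral_prod_right' (f := fun q : (E n × E n) × ℝ =>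
    W (q.1.1 + q.2 • (q.1.2 - q.1.1)) * ‖q.1.2 - q.1.1‖ₑ) ?_
  exact (meas_Avg hW).mul (Continuous.measurable (by fun_prop))

theorem half_Avg (hW : Measurable W) {x y : E n} {r t : ℝ} (hy : y ∈ ball x r) (h0 : 1 / 2 ≤ t)
    (h1 : t ≤ 1) : ∫⁻ y' in ball x r, W (y + t • (y' - y)) ≤
      ENNReal.ofReal (2 ^ n) * ∫⁻ y in ball x r, W y := by
  have ht : 0 < t := by linarith
  have hG : Measurable fun z => (ball x r).indicator W (y - t • y + z) :=
    (hW.indicator measurableSet_ball).comp (measurable_const_add _)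
  calc ∫⁻ y' in ball x r, W (y + t • (y' - y))
      = ∫⁻ y' in ball x r, (ball x r).indicator W (y - t • y + t • y') := by
        refine setLIntegral_congr_fun measurableSet_ball fun y' hy' => ?_
        have e : y - t • y + t • y' = y + t • (y' - y) := by rw [smul_sub]; abel
        simp only [e]
        rw [indicator_of_mem ((convex_ball x r).add_smul_sub_mem hy hy' ⟨ht.le, h1⟩)]
    _ ≤ ∫⁻ y', (ball x r).indicator W (y - t • y + t • y') := setLIntegral_le_lintegral _ _
    _ = ∫⁻ z, (ball x r).indicator W (y - t • y + z) ∂(Measure.map (t • ·) volume) :=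
        (lintegral_map hG (measurable_const_smul t)).symm
    _ = ENNReal.ofReal |(t ^ n)⁻¹| * ∫⁻ y in ball x r, W y := by
        rw [Measure.map_addHaar_smul _ ht.ne', lintegral_smul_measure, finrank_euclideanSpace_fin,
          lintegral_add_left_eq_self (fun z => (ball x r).indicator W z),
          lintegral_indicator measurableSet_ball, smul_eq_mul]
    _ ≤ _ := by
        refine mul_le_mul_left (ENNReal.ofReal_le_ofReal ?_) _
        rw [abs_of_pos (by positivity), ← inv_pow]
        refine pow_le_pow_left₀ (by positivity) ?_ n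
        rw [inv_le_comm₀ ht two_pos]
        linarith

theorem slice_Avg (hW : Measurable W) (x : E n) {r t : ℝ} (ht : t ∈ Icc (0 : ℝ) 1) :
    ∫⁻ y in ball x r, ∫⁻ y' in ball x r, W (y + t • (y' - y)) ≤
      (ENNReal.ofReal (2 ^ n) * ∫⁻ y in ball x r, W y) * volume (ball x r) := by
  have H : ∀ s : ℝ, 1 / 2 ≤ s → s ≤ 1 →
      ∫⁻ y in ball x r, ∫⁻ y' in ball x r, W (y + s • (y' - y)) ≤
        (ENNReal.ofReal (2 ^ n) * ∫⁻ y in ball x r, W y) * volume (ball x r) := fun s h0 h1 => by
    rw [← setLIntegral_const]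
    exact setLIntegral_mono' measurableSet_ball fun y hy => half_Avg hW hy h0 h1
  rcases le_total (1 / 2) t with h | h
  · exact H t h ht.2
  · have hm : Measurable fun p : E n × E n => W (p.1 + t • (p.2 - p.1)) :=
      hW.comp (Continuous.measurable (by fun_prop))
    rw [lintegral_lintegral_swap hm.aemeasurable]
    refine le_of_eq_of_le ?_ (H (1 - t) (by linarith) (by linarith [ht.1]))
    refine lintegral_congr fun y => lintegral_congr fun y' => congrArg W ?_
    simp only [sub_smul, smul_sub, one_smul]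
    abel

theorem seg_avg (hW : Measurable W) (x : E n) {r : ℝ} (hr : 0 < r) :
    ∫⁻ y in ball x r, ∫⁻ y' in ball x r, seg W y y' ≤
      ENNReal.ofReal (2 ^ (n + 1) * r) * volume (ball x r) * ∫⁻ y in ball x r, W y := by
  have hm := meas_Avg hW
  have hm' : Measurable fun p : E n × E n => ∫⁻ t in Icc (0 : ℝ) 1, W (p.1 + t • (p.2 - p.1)) :=
    hm.lintegral_prod_right'
  calc ∫⁻ y in ball x r, ∫⁻ y' in ball x r, seg W y y'
      ≤ ∫⁻ y in ball x r, ∫⁻ y' in ball x r,
          ENNReal.ofReal (2 * r) * ∫⁻ t in Icc (0 : ℝ) 1, W (y + t • (y' - y)) := by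
        refine setLIntegral_mono' measurableSet_ball fun y hy =>
          setLIntegral_mono' measurableSet_ball fun y' hy' => ?_
        rw [seg, lintegral_mul_const' _ _ enorm_ne_top, mul_comm]
        refine mul_le_mul_left ?_ _
        rw [← ofReal_norm, ← dist_eq_norm]
        refine ENNReal.ofReal_le_ofReal ?_
        linarith [dist_triangle_right y' y x, mem_ball.1 hy, mem_ball.1 hy']
    _ = ENNReal.ofReal (2 * r) * ∫⁻ t in Icc (0 : ℝ) 1, ∫⁻ y in ball x r, ∫⁻ y' in ball x r,
          W (y + t • (y' - y)) := by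
        simp only [lintegral_const_mul' _ _ ENNReal.ofReal_ne_top]
        congr 1
        rw [← lintegral_prod _ hm'.aemeasurable, lintegral_lintegral_swap hm.aemeasurable]
        refine lintegral_congr fun t => lintegral_prod _ ?_
        exact (hW.comp (Continuous.measurable (by fun_prop))).aemeasurable
    _ ≤ ENNReal.ofReal (2 * r) * ∫⁻ _ in Icc (0 : ℝ) 1,
          (ENNReal.ofReal (2 ^ n) * ∫⁻ y in ball x r, W y) * volume (ball x r) :=
        mul_le_mul_right (setLIntegral_mono' measurableSet_Icc fun t ht => slice_Avg hW x ht) _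
    _ = _ := by
        rw [setLIntegral_const, Real.volume_Icc, sub_zero, ENNReal.ofReal_one, mul_one,
          show (2 : ℝ) ^ (n + 1) * r = 2 * r * 2 ^ n by ring,
          ENNReal.ofReal_mul (p := 2 * r) (by positivity)]
        ring

theorem avg_step (hW : Measurable W) {F : E n → ℝ≥0∞} (hF : Measurable F)
    (h : ∀ y y', F y ≤ F y' + seg W y' y) {S S' : Set (E n)} (x : E n) {r : ℝ} (hr : 0 < r)
    (hS : S ⊆ ball x r) (hS' : S' ⊆ ball x r) :
    (∫⁻ y in S, F y) * volume S' ≤ (∫⁻ y in S', F y) * volume S +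
      ENNReal.ofReal (2 ^ (n + 1) * r) * volume (ball x r) * ∫⁻ y in ball x r, W y := by
  calc (∫⁻ y in S, F y) * volume S' = ∫⁻ _ in S', ∫⁻ y in S, F y := (setLIntegral_const _ _).symm
    _ ≤ ∫⁻ y' in S', (F y' * volume S + ∫⁻ y in ball x r, seg W y' y) := by
        refine lintegral_mono fun y' => (lintegral_mono fun y => h y y').trans ?_
        rw [lintegral_add_left measurable_const, setLIntegral_const]
        exact add_le_add_right (lintegral_mono_set hS) _
    _ = (∫⁻ y in S', F y) * volume S + ∫⁻ y' in S', ∫⁻ y in ball x r, seg W y' y := by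
        rw [lintegral_add_left (hF.mul_const _), lintegral_mul_const _ hF]
    _ ≤ _ := add_le_add_right ((lintegral_mono_set hS').trans (seg_avg hW x hr)) _

end

end Vale.Agent.P210
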