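import Vale.Agent.P210.Defs

/-! P210 Cost: the costs (helper names end with _Cost). `(W ·).toReal` is integrable on balls (`integrable_toReal_of_lintegral_ne_top`, `L1b`). `tent = 1` on `t ≤ 1`, `= 0` on `2 ≤ t`, `1`-Lipschitz, values in `[0, 1]`.
`lam_lip`: the difference of the tents is at most `dist x y / s` and vanishes off `ball x (2 s) ∪ ball y (2 s)`.
`exists_H`: `H x k = G k + ∑' i : ℕ, (l (k - 1 - i) x - l (k - 1 - i) 0)` with `G (k + 1) = G k + l k 0` (`G k = ∑ i ∈ Ico 0 k, l i 0 - ∑ i ∈ Ico k 0, l i 0`); `1 / sc M (k - 1 - i) ≤ (1 / 2) ^ (i + 1) / sc M k`. -/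

namespace Vale.Agent.P210

open Set Filter Topology Metric MeasureTheory
open scoped ENNReal

noncomputable section

variable {n : ℕ} {Ω : Set (E n)}
  {W : E n → ℝ≥0∞} {A s : ℝ}

theorem tent_nonneg_Cost (t : ℝ) : 0 ≤ tent t := le_max_left _ _

theorem tent_le_Cost (t : ℝ) : tent t ≤ 1 := max_le zero_le_one (min_le_left _ _)

theorem tent_one_Cost {t : ℝ} (h : t ≤ 1) : tent t = 1 := by
  rw [tent, min_eq_left (by linarith), max_eq_right zero_le_one]

theorem tent_zero_Cost {t : ℝ} (h : 2 ≤ t) : tent t = 0 :=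
  max_eq_left ((min_le_right _ _).trans (by linarith))

theorem tent_lip_Cost (a b : ℝ) : |tent a - tent b| ≤ |a - b| := by
  unfold tent
  refine (abs_max_sub_max_le_max _ _ _ _).trans (max_le (by simp) ?_)
  refine (abs_min_sub_min_le_max _ _ _ _).trans (max_le (by simp) (le_of_eq ?_))
  rw [abs_sub_comm a b]
  congr 1
  ring

theorem tent_out_Cost (hs : 0 < s) {x y : E n} (h : y ∉ ball x (2 * s)) :
    tent (dist y x / s) = 0 := by
  refine tent_zero_Cost ?_
  rw [le_div_iff₀ hs]
  exact not_lt.mp h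

theorem nn_Cost (x y : E n) : 0 ≤ (W y).toReal * tent (dist y x / s) :=
  mul_nonneg ENNReal.toReal_nonneg (tent_nonneg_Cost _)

theorem lint_Cost (hs : 0 < s) (x : E n) :
    ∫⁻ y, ENNReal.ofReal ((W y).toReal * tent (dist y x / s)) ≤ ∫⁻ y in ball x (2 * s), W y := by
  rw [← lintegral_indicator measurableSet_ball]
  refine lintegral_mono fun y => ?_
  by_cases h : y ∈ ball x (2 * s)
  · rw [indicator_of_mem h]
    refine le_trans (ENNReal.ofReal_le_ofReal ?_) ENNReal.ofReal_toReal_le
    exact mul_le_of_le_one_right ENNReal.toReal_nonneg (tent_le_Cost _)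
  · simp only [tent_out_Cost hs h, mul_zero, ENNReal.ofReal_zero, zero_le]

theorem integ_Cost (hW : Measurable W) (hL : L1b W A) (hs : 0 < s) (x : E n) :
    Integrable fun y => (W y).toReal * tent (dist y x / s) := by
  have hc : Continuous fun y : E n => tent (dist y x / s) := by
    unfold tent
    fun_prop
  refine ⟨(hW.ennreal_toReal.mul hc.measurable).aestronglyMeasurable, ?_⟩
  rw [hasFiniteIntegral_iff_ofReal (ae_of_all _ fun y => nn_Cost x y)]
  exact ((lint_Cost hs x).trans (hL x _ (by positivity))).trans_lt ENNReal.ofReal_lt_top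

theorem anti_Cost (c : ℤ → ℝ) : ∃ G : ℤ → ℝ, ∀ k, G (k + 1) = G k + c k := by
  refine ⟨fun k => ∑ i ∈ Finset.range k.toNat, c i - ∑ i ∈ Finset.range (-k).toNat, c (-(i + 1)),
    fun k => ?_⟩
  rcases le_or_gt 0 k with h | h
  · obtain ⟨m, rfl⟩ := Int.eq_ofNat_of_zero_le h
    have h1 : ((m : ℤ) + 1).toNat = m + 1 := by omega
    have h2 : (-((m : ℤ) + 1)).toNat = 0 := by omega
    have h3 : (-(m : ℤ)).toNat = 0 := by omega
    simp only [h1, h2, h3, Int.toNat_natCast, Finset.sum_range_succ, Finset.sum_range_zero]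
    ring
  · obtain ⟨m, rfl⟩ : ∃ m : ℕ, k = -((m : ℤ) + 1) := ⟨(-k - 1).toNat, by omega⟩
    have h1 : (-((m : ℤ) + 1) + 1).toNat = 0 := by omega
    have h2 : (-((m : ℤ) + 1)).toNat = 0 := by omega
    have h3 : (-(-((m : ℤ) + 1) + 1)).toNat = m := by omega
    have h4 : (-(-((m : ℤ) + 1))).toNat = m + 1 := by omega
    simp only [h1, h2, h3, h4, Finset.sum_range_succ, Finset.sum_range_zero]
    ring

theorem geo_Cost {M : ℝ} (hM : 2 ≤ M) {a : ℝ} (ha : 0 ≤ a) (k : ℤ) (i : ℕ) :
    a / sc M (k - 1 - i) ≤ a / sc M k / 2 / 2 ^ i := by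
  have hM0 : 0 < M := by linarith
  have h1 : sc M (k - 1 - i) = sc M k * M ^ (i + 1) := by
    rw [sc, sc, ← zpow_natCast, ← zpow_add₀ hM0.ne']
    congr 1
    push_cast
    ring
  have h2 := sc_pos hM0 k
  rw [h1, div_div, div_div]
  refine div_le_div_of_nonneg_left ha (by positivity) (mul_le_mul_of_nonneg_left ?_ h2.le)
  rw [← pow_succ']
  exact pow_le_pow_left₀ (by norm_num) hM _

theorem lam_nonneg (hs : 0 < s) (x : E n) : 0 ≤ lam W s x := by
  exact mul_nonneg (by positivity) (integral_nonneg fun y => nn_Cost x y)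

theorem lam_up (hs : 0 < s) (x : E n) :
    ENNReal.ofReal (lam W s x) ≤ ENNReal.ofReal (s / s ^ n) * ∫⁻ y in ball x (2 * s), W y := by
  rw [lam, ENNReal.ofReal_mul (by positivity)]
  refine mul_le_mul_right (le_trans ?_ (lint_Cost hs x)) _
  rw [← Real.enorm_eq_ofReal (integral_nonneg fun y => nn_Cost x y)]
  refine (enorm_integral_le_lintegral_enorm _).trans (le_of_eq (lintegral_congr fun y => ?_))
  exact Real.enorm_eq_ofReal (nn_Cost x y)

theorem lam_le (hA : 0 ≤ A) (hL : L1b W A) (hs : 0 < s) (x : E n) : lam W s x ≤ 2 ^ n * A := by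
  have h := (lam_up (W := W) hs x).trans (mul_le_mul_right (hL x _ (by positivity)) _)
  rw [← ENNReal.ofReal_mul (by positivity), ENNReal.ofReal_le_ofReal_iff (by positivity)] at h
  refine h.trans ?_
  have h1 : s / s ^ n * (A * (2 * s) ^ n / (2 * s)) = 2 ^ n * A / 2 := by
    rw [mul_pow]
    field_simp
  have h2 : 0 ≤ 2 ^ n * A := by positivity
  rw [h1]
  linarith

theorem lam_ge (hW : Measurable W) (hW' : ∀ y, W y ≠ ∞) (hL : L1b W A) (hs : 0 < s) (x : E n) :
    ∫⁻ y in ball x s, W y ≤ ENNReal.ofReal (s ^ n / s * lam W s x) := by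
  have h1 : s ^ n / s * lam W s x = ∫ y, (W y).toReal * tent (dist y x / s) := by
    rw [lam]
    field_simp
  rw [h1, ofReal_integral_eq_lintegral_ofReal (integ_Cost hW hL hs x)
    (ae_of_all _ fun y => nn_Cost x y), ← lintegral_indicator measurableSet_ball]
  refine lintegral_mono fun y => ?_
  by_cases h : y ∈ ball x s
  · rw [indicator_of_mem h, tent_one_Cost ((div_le_one hs).mpr (mem_ball.mp h).le), mul_one,
      ENNReal.ofReal_toReal (hW' y)]
  · rw [indicator_of_notMem h]
    exact zero_le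

theorem lam_lip (hW : Measurable W) (hA : 0 ≤ A) (hL : L1b W A) (hs : 0 < s) (x y : E n) :
    |lam W s x - lam W s y| ≤ 2 ^ n * A * dist x y / s := by
  have hd : 0 ≤ dist x y / s := by positivity
  have h1 : ∀ z, ‖(W z).toReal * tent (dist z x / s) - (W z).toReal * tent (dist z y / s)‖ₑ ≤
      ENNReal.ofReal (dist x y / s) *
        ((ball x (2 * s)).indicator W z + (ball y (2 * s)).indicator W z) := fun z => by
    by_cases h : z ∈ ball x (2 * s) ∨ z ∈ ball y (2 * s)
    · have h2 : W z ≤ (ball x (2 * s)).indicator W z + (ball y (2 * s)).indicator W z := by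
        rcases h with h | h
        · rw [indicator_of_mem h]
          exact le_self_add
        · rw [indicator_of_mem h]
          exact le_add_self
      refine le_trans ?_ (mul_le_mul_right (ENNReal.ofReal_toReal_le.trans h2) _)
      rw [Real.enorm_eq_ofReal_abs, ← ENNReal.ofReal_mul hd, ← mul_sub, abs_mul,
        abs_of_nonneg ENNReal.toReal_nonneg, mul_comm]
      refine ENNReal.ofReal_le_ofReal (mul_le_mul_of_nonneg_right ?_ ENNReal.toReal_nonneg)
      refine (tent_lip_Cost _ _).trans ?_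
      rw [← sub_div, abs_div, abs_of_pos hs, dist_comm z x, dist_comm z y]
      exact div_le_div_of_nonneg_right (abs_dist_sub_le x y z) hs.le
    · rw [not_or] at h
      simp only [tent_out_Cost hs h.1, tent_out_Cost hs h.2, sub_self, enorm_zero, zero_le]
  have h2 := (enorm_integral_le_lintegral_enorm (μ := volume) _).trans (lintegral_mono h1)
  rw [lintegral_const_mul' _ _ ENNReal.ofReal_ne_top,
    lintegral_add_left (hW.indicator measurableSet_ball), lintegral_indicator measurableSet_ball,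
    lintegral_indicator measurableSet_ball,
    integral_sub (integ_Cost hW hL hs x) (integ_Cost hW hL hs y)] at h2
  have h3 := h2.trans (mul_le_mul_right
    (add_le_add (hL x _ (by positivity)) (hL y _ (by positivity))) _)
  rw [← ENNReal.ofReal_add (by positivity) (by positivity), ← ENNReal.ofReal_mul hd,
    Real.enorm_eq_ofReal_abs, ENNReal.ofReal_le_ofReal_iff (by positivity)] at h3
  rw [lam, lam, ← mul_sub, abs_mul, abs_of_nonneg (by positivity : 0 ≤ s / s ^ n)]
  refine (mul_le_mul_of_nonneg_left h3 (by positivity)).trans (le_of_eq ?_)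
  rw [mul_pow]
  field_simp
  ring

theorem exists_H {M : ℝ} (hM : 2 ≤ M) {l : ℤ → E n → ℝ} (h0 : ∀ k x, 0 ≤ l k x)
    (h1 : ∀ k x, l k x ≤ A) (h2 : ∀ k x y, |l k x - l k y| ≤ A * dist x y / sc M k) :
    ∃ H : E n → ℤ → ℝ, Hgt M A H ∧ ∀ x k, H x (k + 1) = H x k + l k x := by
  have hA : 0 ≤ A := (h0 0 0).trans (h1 0 0)
  obtain ⟨G, hG⟩ := anti_Cost fun k => l k 0
  have hb : ∀ (x y : E n) (k : ℤ) (i : ℕ),
      ‖l (k - 1 - i) x - l (k - 1 - i) y‖ ≤ A * dist x y / sc M k / 2 / 2 ^ i := fun x y k i =>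
    (h2 _ x y).trans (geo_Cost hM (by positivity) k i)
  have hs : ∀ (x y : E n) (k : ℤ), Summable fun i : ℕ => l (k - 1 - i) x - l (k - 1 - i) y :=
    fun x y k => Summable.of_norm_bounded (hasSum_geometric_two' _).summable (hb x y k)
  have he : ∀ (x : E n) (k : ℤ),
      G (k + 1) + ∑' i : ℕ, (l (k + 1 - 1 - i) x - l (k + 1 - 1 - i) 0) =
        G k + ∑' i : ℕ, (l (k - 1 - i) x - l (k - 1 - i) 0) + l k x := fun x k => by
    have h3 : ∀ i : ℕ, k + 1 - 1 - ((i + 1 : ℕ) : ℤ) = k - 1 - i := fun i => by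
      push_cast
      ring
    rw [(hs x 0 (k + 1)).tsum_eq_zero_add, hG]
    simp only [h3]
    simp only [Nat.cast_zero, sub_zero, add_sub_cancel_right]
    ring
  refine ⟨fun x k => G k + ∑' i : ℕ, (l (k - 1 - i) x - l (k - 1 - i) 0),
    ⟨fun x k => ?_, fun x k => ?_, fun x y k => ?_⟩, he⟩
  · simp only [he]
    linarith [h0 k x]
  · simp only [he]
    linarith [h1 k x]
  · rw [add_sub_add_left_eq_sub, ← (hs x 0 k).tsum_sub (hs y 0 k)]
    simp only [sub_sub_sub_cancel_right]
    exact tsum_of_norm_bounded (hasSum_geometric_two' _) (hb x y k)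

end

end Vale.Agent.P210
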