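import Vale.Agent.P210.Met

/-! P210 Cut: consequences of properness (helper names end with _Cut).
`dd_le_seg`: assume `seg ≠ ∞`, `R = seg.toReal`, `B = {dd x · ≤ R}` is compact, so closed, and lies in `Ω` (`dd_mem`). Continuous induction
(`IsClosed.mem_of_ge_of_forall_exists_gt` or `IsClosed.Icc_subset_of_forall_exists_gt`) for the closed set of `t` with `∀ s ∈ Icc 0 t, x + s • (y - x) ∈ B`: if the segment up to `t'` lies in `Ω`
then `dd x (x + s • v) ≤ seg x (x + s • v) ≤ seg x y` (`dd_le_seg0`, scaling of the parameter: `lintegral` over `Icc 0 s` after `t ↦ s * t`), and `Ω` is open.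
`cutoff`: `η R y = Ω.indicator (max 0 (min 1 (R + 1 - (dd o y).toReal)))`; it vanishes off the compact set `{dd o · ≤ R + 1} ⊆ Ω`;
`|(dd o y).toReal - (dd o x).toReal| ≤ (dd x y).toReal` (`dd_tri`, `dd_symm`, `dd_fin`), `dd_loc`; it is `1` on the open set `{dd o · < R}` (`dd_open`). -/

namespace Vale.Agent.P210

open Set Filter Topology Metric MeasureTheory
open scoped ENNReal

noncomputable section

variable {n : ℕ} {Ω : Set (E n)}
  {w : E n → ℝ} {x y : E n}

theorem pt_Cut (x v : E n) (s t : ℝ) : x + t • (x + s • v - x) = x + (s * t) • v := by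
  rw [add_sub_cancel_left, smul_smul, mul_comm]

theorem scale_Cut (W : E n → ℝ≥0∞) (x y : E n) {s : ℝ} (h0 : 0 < s) (h1 : s ≤ 1) :
    seg W x (x + s • (y - x)) ≤ seg W x y := by
  have h := lintegral_image_eq_lintegral_abs_deriv_mul (s := Icc (0 : ℝ) 1) (f := fun t => s * t)
    (f' := fun _ => s) measurableSet_Icc
    (fun t _ => by simpa using ((hasDerivAt_id t).const_mul s).hasDerivWithinAt)
    (fun _ _ _ _ e => mul_left_cancel₀ h0.ne' e) fun u => W (x + u • (y - x)) * ‖y - x‖ₑ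
  have e : seg W x (x + s • (y - x)) =
      ∫⁻ t in Icc (0 : ℝ) 1, ENNReal.ofReal |s| * (W (x + (s * t) • (y - x)) * ‖y - x‖ₑ) := by
    refine lintegral_congr fun t => ?_
    rw [pt_Cut, add_sub_cancel_left, enorm_smul, Real.enorm_eq_ofReal_abs, mul_left_comm]
  rw [e, ← h]
  refine lintegral_mono_set ?_
  rintro _ ⟨t, ht, rfl⟩
  exact ⟨mul_nonneg h0.le ht.1, mul_le_one₀ h1 ht.1 ht.2⟩

theorem dd_le_seg (hD : Dom Ω w) (hP : Proper Ω w) (hx : x ∈ Ω) (y : E n) :
    dd Ω w x y ≤ seg (WW Ω w) x y := by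
  rcases eq_or_ne (seg (WW Ω w) x y) ∞ with hs | hs
  · rw [hs]
    exact le_top
  have hγ : Continuous fun t : ℝ => x + t • (y - x) := by fun_prop
  have hB := ((hP x hx (seg (WW Ω w) x y).toReal).isClosed.preimage hγ).inter
    (isClosed_Icc (a := (0 : ℝ)) (b := 1))
  rw [ENNReal.ofReal_toReal hs] at hB
  have hΩ : ∀ z, dd Ω w x z ≤ seg (WW Ω w) x y → z ∈ Ω := fun z hz =>
    (dd_mem (ne_top_of_le_ne_top hs hz)).2
  have h := hB.Icc_subset_of_forall_mem_nhdsGT_of_Icc_subset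
    (by simp only [mem_preimage, mem_ofPred_eq, zero_smul, add_zero, dd_self hx, zero_le])
    (fun t ht hsub => by
      have hU : (fun t : ℝ => x + t • (y - x)) ⁻¹' Ω ∈ 𝓝[>] t := nhdsWithin_le_nhds
        ((hD.op.preimage hγ).mem_nhds (hΩ _ (hsub ⟨ht.1, le_rfl⟩)))
      obtain ⟨m, hm, hU⟩ := mem_nhdsGT_iff_exists_Ioo_subset.1 hU
      refine mem_of_superset (Ioo_mem_nhdsGT (lt_min hm ht.2)) fun s hs => ?_
      have h0 : 0 < s := ht.1.trans_lt hs.1
      refine (dd_le_seg0 hD fun τ hτ => ?_).trans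
        (scale_Cut _ x y h0 (hs.2.le.trans (min_le_right _ _)))
      rw [pt_Cut]
      rcases le_or_gt (s * τ) t with h | h
      · exact hΩ _ (hsub ⟨mul_nonneg h0.le hτ.1, h⟩)
      · exact hU ⟨h, (mul_le_of_le_one_right h0.le hτ.2).trans_lt (hs.2.trans_le (min_le_left _ _))⟩)
  simpa only [mem_preimage, mem_ofPred_eq, one_smul, add_sub_cancel] using
    h (right_mem_Icc.2 zero_le_one)

theorem dd_step (hD : Dom Ω w) (hP : Proper Ω w) (o y y' : E n) :
    dd Ω w o y ≤ dd Ω w o y' + seg (WW Ω w) y' y := by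
  rcases eq_or_ne (dd Ω w o y') ∞ with h | h
  · rw [h, top_add]
    exact le_top
  · exact (dd_tri o y' y).trans (add_le_add le_rfl (dd_le_seg hD hP (dd_mem h).2 y))

theorem clamp_Cut {a b c : ℝ} (h1 : a ≤ b + c) (h2 : b ≤ a + c) (hc : 0 ≤ c) :
    |max 0 (min 1 a) - max 0 (min 1 b)| ≤ c := by
  rw [abs_le]
  simp only [max_def, min_def]
  constructor <;> split_ifs <;> linarith

theorem cutoff (hD : Dom Ω w) (hP : Proper Ω w) (hc : IsPreconnected Ω) :
    ∃ η : ℕ → E n → ℝ, (∀ R, HasCompactSupport (η R) ∧ tsupport (η R) ⊆ Ω) ∧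
      (∀ R y, 0 ≤ η R y ∧ η R y ≤ 1) ∧
      (∀ R, ∀ x ∈ Ω, ∀ ε : ℝ, 0 < ε → ∀ᶠ y in 𝓝 x, |η R y - η R x| ≤ (w x + ε) * dist y x) ∧
      ∀ x ∈ Ω, ∀ᶠ R in atTop, ∀ᶠ y in 𝓝 x, η R y = 1 := by
  rcases Ω.eq_empty_or_nonempty with rfl | ⟨o, ho⟩
  · exact ⟨fun _ _ => 0, fun _ => ⟨HasCompactSupport.zero, by simp [tsupport]⟩,
      fun _ _ => ⟨le_rfl, zero_le_one⟩, fun _ _ h => h.elim, fun _ h => h.elim⟩
  have hf : ∀ {y}, y ∈ Ω → dd Ω w o y ≠ ∞ := fun hy => dd_fin hD hc ho hy
  refine ⟨fun R => Ω.indicator fun y => max 0 (min 1 (R + 1 - (dd Ω w o y).toReal)),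
    fun R => ?_, fun R y => ?_, fun R x hx ε hε => ?_, fun x hx => ?_⟩
  · have hK := hP o ho (R + 1)
    have hs : Function.support (Ω.indicator fun y => max 0 (min 1 (R + 1 - (dd Ω w o y).toReal))) ⊆
        {y | dd Ω w o y ≤ ENNReal.ofReal (R + 1)} := fun y hy => by
      by_cases hyΩ : y ∈ Ω
      · rw [Function.mem_support, indicator_of_mem hyΩ] at hy
        refine (ENNReal.le_ofReal_iff_toReal_le (hf hyΩ) (by positivity)).2 ?_
        by_contra h
        exact hy (max_eq_left ((min_le_right _ _).trans (by linarith [not_le.1 h])))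
      · exact (hy (indicator_of_notMem hyΩ _)).elim
    have ht := closure_minimal hs hK.isClosed
    exact ⟨hK.of_isClosed_subset isClosed_closure ht, fun y hy =>
      (dd_mem (ne_top_of_le_ne_top ENNReal.ofReal_ne_top (ht hy))).2⟩
  · by_cases hy : y ∈ Ω
    · simp only [indicator_of_mem hy]
      exact ⟨le_max_left _ _, max_le zero_le_one (min_le_left _ _)⟩
    · simp only [indicator_of_notMem hy]
      exact ⟨le_rfl, zero_le_one⟩
  · filter_upwards [dd_loc hD hx hε, hD.op.mem_nhds hx] with y h hy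
    have h0 : 0 ≤ (w x + ε) * dist y x := mul_nonneg (by linarith [hD.pos x hx]) dist_nonneg
    have h1 := ENNReal.toReal_le_add ((dd_tri o x y).trans (add_le_add le_rfl h)) (hf hx)
      ENNReal.ofReal_ne_top
    rw [dd_symm] at h
    have h2 := ENNReal.toReal_le_add ((dd_tri o y x).trans (add_le_add le_rfl h)) (hf hy)
      ENNReal.ofReal_ne_top
    rw [ENNReal.toReal_ofReal h0] at h1 h2
    simp only [indicator_of_mem hy, indicator_of_mem hx]
    exact clamp_Cut (by linarith) (by linarith) h0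
  · filter_upwards [(tendsto_natCast_atTop_atTop (R := ℝ)).eventually_gt_atTop
      (dd Ω w o x).toReal] with R hR
    filter_upwards [(dd_open hD o (ENNReal.ofReal R)).mem_nhds
      ((ENNReal.lt_ofReal_iff_toReal_lt (hf hx)).2 hR)] with y hy
    have h1 := ENNReal.toReal_lt_of_lt_ofReal hy
    rw [indicator_of_mem (dd_mem (ne_top_of_lt hy)).2, min_eq_left (by linarith),
      max_eq_right zero_le_one]

end

end Vale.Agent.P210
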