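import Vale.Agent.P210.Avg
import Vale.Agent.P210.Cut
import Vale.Agent.P210.Cost

/-! P210 Chain: the distance is bounded by the accumulated cost (helper names end with _Chain). `F = dd Ω w x` (`dd_meas`, `dd_step`), `s i = sc M i`, `V r = volume (ball _ r) = ofReal (r ^ n) * ω`
(`Measure.addHaar_ball_of_pos`), `a i = (∫⁻ in ball x (s i), F) / V (s i)`. `avg_step` with `S = ball x (s i)`, `S' = ball x (s (i + 1))` and `lam_ge`: `a i ≤ a (i + 1) + ofReal (2 ^ (n + 1) M ^ n / ω * lam (s i) x)`.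
Induction (`Int.le_induction`): `a k ≤ a j + ofReal (c (H x j - H x k))`; `a j ≤ ofReal ((w x + 1) s j)` for large `j` (`dd_loc`), so `a k ≤ ofReal (c B)`.
Then `avg_step` with `S = ball x' s`, `S' = ball x s` in `ball x (11 s)` and `L1b`; finally integrate `dd x x' ≤ dd x y + dd x' y` over `y ∈ ball x' s` (`dd_tri`, `dd_symm`). -/

namespace Vale.Agent.P210

open Set Filter Topology Metric MeasureTheory
open scoped ENNReal

noncomputable section

variable {n : ℕ} {Ω : Set (E n)}

/-- The volume of the unit ball. -/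
def om_Chain (n : ℕ) : ℝ := (volume (ball (0 : E n) 1)).toReal

theorem om_pos_Chain (n : ℕ) : 0 < om_Chain n :=
  ENNReal.toReal_pos (measure_ball_pos _ _ one_pos).ne' measure_ball_lt_top.ne

theorem vol_Chain (x : E n) {r : ℝ} (hr : 0 < r) :
    volume (ball x r) = ENNReal.ofReal (r ^ n * om_Chain n) := by
  rw [Measure.addHaar_ball_of_pos _ x hr, finrank_euclideanSpace_fin,
    ENNReal.ofReal_mul (by positivity), om_Chain, ENNReal.ofReal_toReal measure_ball_lt_top.ne]

theorem cancel_Chain (x : E n) {r : ℝ} (hr : 0 < r) {a b : ℝ≥0∞}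
    (h : a * volume (ball x r) ≤ b * volume (ball x r)) : a ≤ b :=
  (ENNReal.mul_le_mul_iff_left (measure_ball_pos _ _ hr).ne' measure_ball_lt_top.ne).1 h

theorem step_Chain {W : E n → ℝ≥0∞} (hW : Measurable W) {F : E n → ℝ≥0∞} (hF : Measurable F)
    (h : ∀ y y', F y ≤ F y' + seg W y' y) {p p' x : E n} {a a' r m b e : ℝ} (ha : 0 < a)
    (ha' : 0 < a') (hr : 0 < r) (hm : 0 ≤ m) (hb : 0 ≤ b) (hS : ball p a ⊆ ball x r)
    (hS' : ball p' a' ⊆ ball x r) (hWm : ∫⁻ y in ball x r, W y ≤ ENNReal.ofReal m)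
    (hFb : ∫⁻ y in ball p' a', F y ≤ ENNReal.ofReal b * volume (ball p' a'))
    (he : 2 ^ (n + 1) * r * r ^ n * m = e * (a ^ n * a' ^ n * om_Chain n)) :
    ∫⁻ y in ball p a, F y ≤ ENNReal.ofReal (b + e) * volume (ball p a) := by
  have ho := om_pos_Chain n
  refine cancel_Chain p' ha' ((avg_step hW hF h x hr hS hS').trans ?_)
  refine (add_le_add (mul_le_mul_left hFb _) (mul_le_mul_right hWm _)).trans (le_of_eq ?_)
  have he0 : 0 ≤ e := by
    have h1 : 0 ≤ e * (a ^ n * a' ^ n * om_Chain n) := by rw [← he]; positivity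
    exact nonneg_of_mul_nonneg_left h1 (by positivity)
  rw [vol_Chain p ha, vol_Chain p' ha', vol_Chain x hr, ← ENNReal.ofReal_mul hb,
    ← ENNReal.ofReal_mul (by positivity), ← ENNReal.ofReal_mul (by positivity),
    ← ENNReal.ofReal_mul (by positivity), ← ENNReal.ofReal_mul (by positivity),
    ← ENNReal.ofReal_mul (by positivity), ← ENNReal.ofReal_add (by positivity) (by positivity)]
  congr 1
  linear_combination om_Chain n * he

theorem one_Chain {M A : ℝ} (hM : 2 ≤ M) {w : E n → ℝ} (hD : Dom Ω w) (hP : Proper Ω w)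
    (hL : L1b (WW Ω w) A) {H : E n → ℤ → ℝ}
    (hH : ∀ x k, H x (k + 1) = H x k + lam (WW Ω w) (sc M k) x) {x : E n} (hx : x ∈ Ω) {k : ℤ}
    {B : ℝ} (hT : Tail H x k B) :
    ∫⁻ y in ball x (sc M k), dd Ω w x y ≤
      ENNReal.ofReal (1 + 2 ^ (n + 1) * M ^ n / om_Chain n * B) * volume (ball x (sc M k)) := by
  have ho := om_pos_Chain n
  have hM0 : 0 < M := by linarith
  set c : ℝ := 2 ^ (n + 1) * M ^ n / om_Chain n with hc
  have hc0 : 0 ≤ c := by positivity
  have key : ∀ (d : ℕ) (b : ℝ), 0 ≤ b →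
      ∫⁻ y in ball x (sc M (k + d)), dd Ω w x y ≤
        ENNReal.ofReal b * volume (ball x (sc M (k + d))) →
      ∫⁻ y in ball x (sc M k), dd Ω w x y ≤
        ENNReal.ofReal (b + c * (H x (k + d) - H x k)) * volume (ball x (sc M k)) := by
    intro d
    induction d with
    | zero => intro b _ h; simpa using h
    | succ d ih =>
      intro b hb h
      have hs := sc_pos hM0 (k + d)
      have hl := lam_nonneg (W := WW Ω w) hs x
      have e1 : k + ((d + 1 : ℕ) : ℤ) = k + d + 1 := by push_cast; ring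
      rw [e1] at h ⊢
      have h1 := step_Chain (e := c * lam (WW Ω w) (sc M (k + d)) x) (WW_meas hD) (dd_meas hD x)
        (dd_step hD hP x) hs (sc_pos hM0 (k + d + 1)) hs (by positivity) hb subset_rfl
        (ball_subset_ball (sc_anti (by linarith) (by omega)))
        (lam_ge (WW_meas hD) WW_ne hL hs x) h (by
          rw [sc_succ hM0, hc, div_pow]
          field_simp)
      have h2 := ih _ (by positivity) h1
      rw [hH, show b + c * (H x (k + d) + lam (WW Ω w) (sc M (k + d)) x - H x k) =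
        b + c * lam (WW Ω w) (sc M (k + d)) x + c * (H x (k + d) - H x k) by ring]
      exact h2
  have h1 : ∀ᶠ y in 𝓝 x, (w x + 1) * dist y x < 1 := by
    have h2 : Continuous fun y : E n => (w x + 1) * dist y x := by fun_prop
    exact h2.continuousAt.eventually_lt continuousAt_const (by simp)
  obtain ⟨δ, hδ, hδ'⟩ := Metric.eventually_nhds_iff_ball.1 ((dd_loc hD hx one_pos).and h1)
  obtain ⟨d, hd⟩ := pow_unbounded_of_one_lt (sc M k / δ) (by linarith : 1 < M)
  have h2 : sc M (k + d) ≤ δ := by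
    have h3 : sc M (k + d) = sc M k / M ^ d := by
      rw [sc, sc, neg_add, zpow_add₀ hM0.ne', zpow_neg M d, zpow_natCast, div_eq_mul_inv]
    rw [h3, div_le_iff₀ (by positivity)]
    rw [div_lt_iff₀ hδ] at hd
    linarith
  have h3 : ∫⁻ y in ball x (sc M (k + d)), dd Ω w x y ≤
      ENNReal.ofReal 1 * volume (ball x (sc M (k + d))) := by
    rw [← setLIntegral_const]
    refine setLIntegral_mono measurable_const fun y hy => ?_
    have h4 := hδ' y (ball_subset_ball h2 hy)
    exact h4.1.trans (ENNReal.ofReal_le_ofReal h4.2.le)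
  refine (key d 1 zero_le_one h3).trans (mul_le_mul_left (ENNReal.ofReal_le_ofReal ?_) _)
  have h4 := hT (k + d) (by omega)
  have h5 : c * (H x (k + d) - H x k) ≤ c * B := mul_le_mul_of_nonneg_left (by linarith) hc0
  linarith

theorem chain (n : ℕ) {M A : ℝ} (hM : 2 ≤ M) (hA : 0 ≤ A) : ∃ C : ℝ, 0 ≤ C ∧
    ∀ (Ω : Set (E n)) (w : E n → ℝ), Dom Ω w → Proper Ω w → L1b (WW Ω w) A →
    ∀ H : E n → ℤ → ℝ, (∀ x k, H x (k + 1) = H x k + lam (WW Ω w) (sc M k) x) →
    ∀ x ∈ Ω, ∀ x' ∈ Ω, ∀ (k : ℤ) (B : ℝ), dist x x' ≤ 10 * sc M k → Tail H x k B →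
      Tail H x' k B → dd Ω w x x' ≤ ENNReal.ofReal (C * (1 + B)) := by
  have ho := om_pos_Chain n
  have hM0 : 0 < M := by linarith
  set c : ℝ := 2 ^ (n + 1) * M ^ n / om_Chain n with hc
  set e : ℝ := 2 ^ (n + 1) * 11 ^ n * 11 ^ n * A / om_Chain n with he
  have hc0 : 0 ≤ c := by positivity
  have he0 : 0 ≤ e := by positivity
  refine ⟨2 + 2 * c + e, by positivity, fun Ω w hD hP hL H hH x hx x' hx' k B hd hT hT' => ?_⟩
  have hB : 0 ≤ B := by linarith [hT k le_rfl]
  have hs := sc_pos hM0 k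
  have h1 := one_Chain hM hD hP hL hH hx hT
  have h2 := one_Chain hM hD hP hL hH hx' hT'
  rw [← hc] at h1 h2
  have h3 := step_Chain (p := x') (e := e) (WW_meas hD) (dd_meas hD x) (dd_step hD hP x) hs hs
    (by positivity : 0 < 11 * sc M k) (by positivity) (by positivity)
    (ball_subset_ball' (by rw [dist_comm]; linarith)) (ball_subset_ball (by linarith))
    (hL x _ (by positivity)) h1 (by
      rw [he, mul_pow]
      field_simp)
  refine cancel_Chain x' hs ?_
  rw [← setLIntegral_const]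
  have h4 : ∫⁻ _ in ball x' (sc M k), dd Ω w x x' ≤
      ∫⁻ y in ball x' (sc M k), (dd Ω w x y + dd Ω w x' y) :=
    lintegral_mono fun y => by
      rw [dd_symm x' y]
      exact dd_tri x y x'
  rw [lintegral_add_left (dd_meas hD x)] at h4
  refine (h4.trans (add_le_add h3 h2)).trans ?_
  rw [← add_mul, ← ENNReal.ofReal_add (by positivity) (by positivity)]
  refine mul_le_mul_left (ENNReal.ofReal_le_ofReal ?_) _
  nlinarith [mul_nonneg he0 hB]

end

end Vale.Agent.P210
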