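import Vale.Agent.P210.Defs

/-! P210 Cover: the coloured cover (owner helper28). -/

namespace Vale.Agent.P210

open Set Filter Topology Metric MeasureTheory
open scoped ENNReal

noncomputable section

variable {n : ℕ} {Ω : Set (E n)}

/-- The ancestor at level `k` of the cell `d` levels below. -/
def anc (cell : ℤ → E n → E n) : ℕ → ℤ → E n → E n
  | 0, k, y => cell k y
  | d + 1, k, y => cell k (anc cell d (k + 1) y)

/-- The ancestor at level `k` of the cell of level `j`. -/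
def an (cell : ℤ → E n → E n) (k j : ℤ) (y : E n) : E n := anc cell (j - k).toNat k y

/-- The period containing the height of the cell of level `j`. -/
def gam (H : E n → ℤ → ℝ) (cell : ℤ → E n → E n) (θ P : ℝ) (j : ℤ) (y : E n) : ℤ :=
  ⌊(H (an cell j j y) j - θ) / P⌋

/-- The part of the chain before the height `a` is reached. -/
def pre (H : E n → ℤ → ℝ) (cell : ℤ → E n → E n) (a : ℝ) (j : ℤ) (y : E n) : Set (ℤ × E n) :=
  {p | p.1 ≤ j ∧ p.2 = an cell p.1 j y ∧ ∀ k, k ≤ p.1 → H (an cell k j y) k < a}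

/-- The label. -/
def lab (H : E n → ℤ → ℝ) (cell : ℤ → E n → E n) (θ P : ℝ) (j : ℤ) (y : E n) :
    ℤ × Set (ℤ × E n) :=
  (gam H cell θ P j y, pre H cell (θ + P * gam H cell θ P j y) j y)

section

variable {M A θ P : ℝ} {H : E n → ℤ → ℝ} {cell : ℤ → E n → E n}

theorem half_Cover (hM : 2 ≤ M) (k : ℤ) : 2 * sc M (k + 1) ≤ sc M k := by
  have h0 : 0 < M := by linarith
  have h1 := sc_pos h0 k
  rw [sc_succ h0, ← mul_div_assoc, div_le_iff₀ h0]
  nlinarith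

theorem anc_dist (hM : 2 ≤ M) (h1 : ∀ k y, dist y (cell k y) ≤ 2 * sc M k) (d : ℕ) :
    ∀ k y, dist y (anc cell d k y) ≤ 4 * sc M k := by
  induction d with
  | zero =>
    intro k y
    have := sc_pos (show 0 < M by linarith) k
    exact (h1 k y).trans (by linarith)
  | succ d ih =>
    intro k y
    have h2 := dist_triangle y (anc cell d (k + 1) y) (cell k (anc cell d (k + 1) y))
    have h3 := half_Cover hM k
    exact h2.trans (by linarith [ih (k + 1) y, h1 k (anc cell d (k + 1) y)])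

theorem an_succ {k j : ℤ} (h : k < j) (y : E n) :
    an cell k j y = cell k (an cell (k + 1) j y) := by
  have e : (j - k).toNat = (j - (k + 1)).toNat + 1 := by omega
  rw [an, e]
  rfl

theorem an_safe (hM : 2 ≤ M) (h1 : ∀ k y, dist y (cell k y) ≤ 2 * sc M k) {i j : ℤ} {x y : E n}
    (hs : Safe M cell i x) (hy : dist y x ≤ sc M (i + 1)) (hj : i < j) (k : ℤ) (hk : k ≤ i) :
    an cell k j y = an cell k i x := by
  induction k, hk using Int.leInductionDown with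
  | base =>
    have e : an cell i i x = cell i x := by simp [an, anc]
    rw [an_succ hj, e]
    refine hs _ ?_
    have h2 : dist y (an cell (i + 1) j y) ≤ 4 * sc M (i + 1) := anc_dist hM h1 _ _ _
    have h3 := dist_triangle_left (an cell (i + 1) j y) x y
    have h4 := sc_pos (show 0 < M by linarith) (i + 1)
    linarith
  | pred k hk ih =>
    rw [an_succ (show k - 1 < j by omega), an_succ (show k - 1 < i by omega), sub_add_cancel, ih]

theorem Hgt.le (hH : Hgt M A H) (x : E n) {k j : ℤ} (h : k ≤ j) : H x k ≤ H x j :=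
  monotone_int_of_le_succ (hH.mono x) h

theorem Hgt.near (hM : 2 ≤ M) (hA : 0 ≤ A) (hH : Hgt M A H) {x y : E n} {k : ℤ} {c : ℝ}
    (h : dist x y ≤ c * sc M k) : H x k - H y k ≤ c * A ∧ H y k - H x k ≤ c * A := by
  have h0 := sc_pos (show 0 < M by linarith) k
  have h2 : A * dist x y / sc M k ≤ c * A := by
    rw [div_le_iff₀ h0]
    nlinarith
  have h3 := abs_le.1 ((hH.lip x y k).trans h2)
  exact ⟨h3.2, by linarith [h3.1]⟩

theorem gam_iff (hP : 0 < P) {j γ : ℤ} {y : E n} : gam H cell θ P j y = γ ↔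
    θ + P * γ ≤ H (an cell j j y) j ∧ H (an cell j j y) j < θ + P * γ + P := by
  rw [gam, Int.floor_eq_iff, le_div_iff₀ hP, div_lt_iff₀ hP]
  constructor <;> rintro ⟨h1, h2⟩ <;> constructor <;> linarith

theorem col_one (hM : 2 ≤ M) (hA : 0 ≤ A) (hP : 0 < P) (hH : Hgt M A H)
    (h1 : ∀ k y, dist y (cell k y) ≤ 2 * sc M k) {x : E n} {j₀ k γ : ℤ} {S : Set (ℤ × E n)}
    (hx : ∀ j, j₀ ≤ j → lab H cell θ P j x = (γ, S)) (hk : k ≤ j₀) (hS : ∀ z, (k, z) ∉ S) :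
    Tail H x (k - 1) (P + 9 * A) := by
  intro j _
  have h2 := (gam_iff hP).1 (congrArg Prod.fst (hx _ (le_max_left j₀ j)))
  have h3 := (hH.near hM hA (anc_dist hM h1 (max j₀ j - max j₀ j).toNat (max j₀ j) x)).1
  have h4 := hH.le x (le_max_right j₀ j)
  have h5 := hx j₀ le_rfl
  rw [lab, Prod.mk.injEq] at h5
  have h6 := hS (an cell k j₀ x)
  rw [← h5.2, h5.1] at h6
  have h7 : ∃ k', k' ≤ k ∧ θ + P * γ ≤ H (an cell k' j₀ x) k' := by
    by_contra h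
    push Not at h
    exact h6 ⟨hk, rfl, h⟩
  obtain ⟨k', h8, h9⟩ := h7
  have h10 := (hH.near hM hA (anc_dist hM h1 (j₀ - k').toNat k' x)).2
  have h11 := hH.le x h8
  have h12 := hH.step x (k - 1)
  rw [sub_add_cancel] at h12
  simp only [an] at h2 h9
  linarith [h2.2]

theorem col_diam (hM : 2 ≤ M) (hA : 0 ≤ A) (hP : 0 < P) (hH : Hgt M A H)
    (h1 : ∀ k y, dist y (cell k y) ≤ 2 * sc M k) {x x' : E n} {j₀ : ℤ} {l : ℤ × Set (ℤ × E n)}
    (hx : ∀ j, j₀ ≤ j → lab H cell θ P j x = l) (hx' : ∀ j, j₀ ≤ j → lab H cell θ P j x' = l) :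
    ∃ k : ℤ, dist x x' ≤ 10 * sc M k ∧ Tail H x k (P + 9 * A) ∧ Tail H x' k (P + 9 * A) := by
  obtain ⟨γ, S⟩ := l
  have M0 : 0 < M := by linarith
  have e := hx j₀ le_rfl
  have e' := hx' j₀ le_rfl
  rw [lab, Prod.mk.injEq] at e e'
  by_cases h : ∃ k, ∃ z, (k, z) ∈ S
  · obtain ⟨κ, ⟨z, hz⟩, hκ⟩ := Int.exists_greatest_of_bdd (P := fun k => ∃ z, (k, z) ∈ S)
      ⟨j₀, fun k ⟨z, hz⟩ => (e.2 ▸ hz : (k, z) ∈ pre _ _ _ _ _).1⟩ h
    have z1 : (κ, z) ∈ pre H cell (θ + P * gam H cell θ P j₀ x) j₀ x := e.2 ▸ hz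
    have z2 : (κ, z) ∈ pre H cell (θ + P * gam H cell θ P j₀ x') j₀ x' := e'.2 ▸ hz
    have k1 : κ + 1 ≤ j₀ := by
      refine lt_of_le_of_ne z1.1 fun h0 => ?_
      exact (z1.2.2 j₀ (ge_of_eq h0)).not_ge ((gam_iff hP).1 rfl).1
    have k2 : ∀ z, (κ + 1, z) ∉ S := fun z hz => by
      have := hκ _ ⟨z, hz⟩
      omega
    have t1 := col_one hM hA hP hH h1 hx k1 k2
    have t2 := col_one hM hA hP hH h1 hx' k1 k2
    rw [add_sub_cancel_right] at t1 t2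
    refine ⟨κ, ?_, t1, t2⟩
    have d1 : dist x z ≤ 4 * sc M κ := (show z = _ from z1.2.1) ▸ anc_dist hM h1 _ _ _
    have d2 : dist x' z ≤ 4 * sc M κ := (show z = _ from z2.2.1) ▸ anc_dist hM h1 _ _ _
    linarith [dist_triangle_right x x' z, sc_pos M0 κ]
  · push Not at h
    obtain ⟨N, hN⟩ := pow_unbounded_of_one_lt (dist x x') (show 1 < M by linarith)
    refine ⟨min j₀ (-N) - 1, ?_, col_one hM hA hP hH h1 hx (min_le_left _ _) (h _),
      col_one hM hA hP hH h1 hx' (min_le_left _ _) (h _)⟩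
    have h2 : sc M (-N) ≤ sc M (min j₀ (-N) - 1) := sc_anti (by linarith) (by omega)
    have h3 : sc M (-N) = M ^ N := by rw [sc, neg_neg, zpow_natCast]
    linarith [sc_pos M0 (min j₀ (-N) - 1)]

theorem col_cov (hM : 2 ≤ M) (hA : 1 ≤ A) (hP : 0 < P) (hH : Hgt M A H)
    (h1 : ∀ k y, dist y (cell k y) ≤ 2 * sc M k) {x : E n} {j₁ : ℤ}
    (hx : ∀ᶠ y in 𝓝 x, Tail H y j₁ 1)
    (hb : ∀ (k γ : ℤ), |H x k - (θ + P * γ)| ≤ 10 * A →
      (∃ i, k ≤ i ∧ Safe M cell i x) ∧ ¬ Tail H x k A) :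
    ∃ (l : ℤ × Set (ℤ × E n)) (j₀ : ℤ), ∀ᶠ y in 𝓝 x, ∀ j, j₀ ≤ j → lab H cell θ P j y = l := by
  have M0 : 0 < M := by linarith
  have A0 : 0 ≤ A := by linarith
  have hn : ∀ k : ℤ, ∀ᶠ y in 𝓝 x, dist y x ≤ sc M k := fun k => closedBall_mem_nhds x (sc_pos M0 k)
  have t0 : Tail H x j₁ A := fun j hj => (hx.self_of_nhds j hj).trans (by linarith)
  obtain ⟨γ, g1, g2⟩ : ∃ γ : ℤ, θ + P * γ ≤ H x j₁ ∧ H x j₁ < θ + P * γ + P := by
    refine ⟨⌊(H x j₁ - θ) / P⌋, ?_, ?_⟩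
    · have := (le_div_iff₀ hP).1 (Int.floor_le ((H x j₁ - θ) / P))
      linarith
    · have := (div_lt_iff₀ hP).1 (Int.lt_floor_add_one ((H x j₁ - θ) / P))
      linarith
  have g3 : θ + P * γ + 10 * A < H x j₁ := by
    by_contra h
    exact (hb j₁ γ (abs_le.2 ⟨by linarith, by linarith⟩)).2 t0
  have g4 : H x j₁ + 10 * A < θ + P * γ + P := by
    by_contra h
    refine (hb j₁ (γ + 1) (abs_le.2 ⟨?_, ?_⟩)).2 t0 <;> push_cast <;> linarith
  have v1 : ∀ y k j, H y k - 4 * A ≤ H (an cell k j y) k ∧ H (an cell k j y) k ≤ H y k + 4 * A := by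
    intro y k j
    have := hH.near hM A0 (anc_dist hM h1 (j - k).toNat k y)
    exact ⟨by linarith [this.1, show H (an cell k j y) k = H (anc cell (j - k).toNat k y) k from rfl],
      by linarith [this.2, show H (an cell k j y) k = H (anc cell (j - k).toNat k y) k from rfl]⟩
  have v2 : ∀ y, dist y x ≤ sc M j₁ → ∀ k, k ≤ j₁ → H x k - A ≤ H y k ∧ H y k ≤ H x k + A := by
    intro y hy k hk
    have := hH.near hM A0 (c := 1) (k := k) (hy.trans (by rw [one_mul]; exact sc_anti (by linarith) hk))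
    exact ⟨by linarith [this.2], by linarith [this.1]⟩
  have e1 : ∀ᶠ y in 𝓝 x, ∀ j, j₁ ≤ j → gam H cell θ P j y = γ := by
    filter_upwards [hx, hn j₁] with y y1 y2 j hj
    have a1 := v1 y j j
    have a2 := v2 y y2 j₁ le_rfl
    exact (gam_iff hP).2 ⟨by linarith [hH.le y hj, a1.1, a2.1], by linarith [y1 j hj, a1.2, a2.2]⟩
  have e2 : ∀ y, dist y x ≤ sc M j₁ → ∀ j p, p ∈ pre H cell (θ + P * γ) j y →
      p.1 ≤ j₁ ∧ H x p.1 < θ + P * γ + 5 * A := by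
    intro y hy j p hp
    have a1 : p.1 ≤ j₁ := by
      by_contra h
      have a2 := hp.2.2 j₁ (le_of_not_ge h)
      linarith [(v1 y j₁ j).1, (v2 y hy j₁ le_rfl).1]
    exact ⟨a1, by linarith [hp.2.2 p.1 le_rfl, (v1 y p.1 j).1, (v2 y hy p.1 a1).1]⟩
  by_cases h : ∃ k, k ≤ j₁ ∧ H x k < θ + P * γ + 5 * A
  · obtain ⟨κ, ⟨k1, k2⟩, k3⟩ := Int.exists_greatest_of_bdd
      (P := fun k => k ≤ j₁ ∧ H x k < θ + P * γ + 5 * A) ⟨j₁, fun k hk => hk.1⟩ h
    have k4 : κ + 1 ≤ j₁ := lt_of_le_of_ne k1 fun h0 => by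
      rw [h0] at k2
      linarith
    have k5 : θ + P * γ + 5 * A ≤ H x (κ + 1) := by
      by_contra h0
      have := k3 _ ⟨k4, not_le.1 h0⟩
      omega
    obtain ⟨⟨i, i1, i2⟩, -⟩ := hb κ γ (abs_le.2 ⟨by linarith [hH.step x κ], by linarith⟩)
    refine ⟨(γ, {p | p.1 ≤ κ ∧ p.2 = an cell p.1 i x ∧
      ∀ k, k ≤ p.1 → H (an cell k i x) k < θ + P * γ}), max j₁ (i + 1), ?_⟩
    filter_upwards [e1, hn j₁, hn (i + 1)] with y y1 y2 y3 j hj
    have j1 : j₁ ≤ j := (le_max_left _ _).trans hj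
    have j2 : i < j := (le_max_right _ _).trans hj
    have a1 := an_safe hM h1 i2 y3 j2
    rw [lab, y1 j j1]
    refine Prod.ext rfl (Set.ext fun p => ⟨fun hp => ?_, fun hp => ?_⟩)
    · have a2 : p.1 ≤ κ := k3 _ (e2 y y2 j p hp)
      exact ⟨a2, hp.2.1.trans (a1 _ (a2.trans i1)),
        fun k hk => a1 k (hk.trans (a2.trans i1)) ▸ hp.2.2 k hk⟩
    · have a2 : p.1 ≤ i := hp.1.trans i1
      exact ⟨a2.trans j2.le, hp.2.1.trans (a1 _ a2).symm,
        fun k hk => (a1 k (hk.trans a2)).symm ▸ hp.2.2 k hk⟩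
  · refine ⟨(γ, ∅), j₁, ?_⟩
    filter_upwards [e1, hn j₁] with y y1 y2 j hj
    rw [lab, y1 j hj]
    exact Prod.ext rfl (eq_empty_of_forall_notMem fun p hp => h ⟨_, e2 y y2 j p hp⟩)

end

theorem sep_Cover {m : ℕ} {A : ℝ} (hA : 1 ≤ A) {c d : Fin (m + 1)} (h : c ≠ d) (γ γ' : ℤ) :
    22 * A ≤ |22 * A * (c : ℕ) + 22 * (m + 1) * A * γ - (22 * A * (d : ℕ) + 22 * (m + 1) * A * γ')| := by
  have h1 : ((c : ℕ) : ℤ) - (d : ℕ) + (m + 1) * (γ - γ') ≠ 0 := by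
    intro h0
    have c1 := c.2
    have d1 := d.2
    have h2 : (c : ℕ) ≠ d := fun e => h (Fin.ext e)
    rcases lt_trichotomy (γ - γ') 0 with h3 | h3 | h3
    · have : ((m : ℤ) + 1) * (γ - γ') ≤ (m + 1) * (-1) :=
        mul_le_mul_of_nonneg_left (by omega) (by positivity)
      omega
    · rw [h3] at h0
      omega
    · have : ((m : ℤ) + 1) * 1 ≤ (m + 1) * (γ - γ') :=
        mul_le_mul_of_nonneg_left (by omega) (by positivity)
      omega
  have h2 : (1 : ℝ) ≤ |((((c : ℕ) : ℤ) - (d : ℕ) + (m + 1) * (γ - γ') : ℤ) : ℝ)| := by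
    exact_mod_cast Int.one_le_abs h1
  have e : 22 * A * (c : ℕ) + 22 * (m + 1) * A * γ - (22 * A * (d : ℕ) + 22 * (m + 1) * A * γ') =
      22 * A * ((((c : ℕ) : ℤ) - (d : ℕ) + (m + 1) * (γ - γ') : ℤ) : ℝ) := by
    push_cast
    ring
  rw [e, abs_mul, abs_of_nonneg (by linarith : 0 ≤ 22 * A)]
  exact le_mul_of_one_le_right (by linarith) h2

theorem cover {m : ℕ} (hm : 1 ≤ m) {M A : ℝ} (hM : 2 ≤ M) (hA : 1 ≤ A) {H : E n → ℤ → ℝ}
    (hH : Hgt M A H) {cell : Fin (m + 1) → ℤ → E n → E n}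
    (h1 : ∀ c k y, dist y (cell c k y) ≤ 2 * sc M k)
    (h2 : ∀ x k c₀, (∀ c, c ≠ c₀ → ∀ i, k ≤ i → ¬ Safe M (cell c) i x) → Tail H x k A)
    (h3 : ∀ x ∈ Ω, ∃ k : ℤ, ∀ᶠ y in 𝓝 x, Tail H y k 1) :
    ∃ (ι : Type) (U : Fin (m + 1) → ι → Set (E n)), (∀ c i, IsOpen (U c i)) ∧
      (∀ c i j x, x ∈ U c i → x ∈ U c j → i = j) ∧ (∀ x ∈ Ω, ∃ c i, x ∈ U c i) ∧
      ∀ c i, ∀ x ∈ U c i, ∀ x' ∈ U c i, ∃ k : ℤ, dist x x' ≤ 10 * sc M k ∧
        Tail H x k ((22 * (m + 1) + 9) * A) ∧ Tail H x' k ((22 * (m + 1) + 9) * A) := by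
  have A0 : 0 ≤ A := by linarith
  have hP : 0 < 22 * ((m : ℝ) + 1) * A := by positivity
  refine ⟨ℤ × Set (ℤ × E n), fun c l => {x | ∃ j₀ : ℤ, ∀ᶠ y in 𝓝 x, ∀ j, j₀ ≤ j →
    lab H (cell c) (22 * A * (c : ℕ)) (22 * (m + 1) * A) j y = l}, fun c l => ?_,
    fun c l l' x ⟨j, hj⟩ ⟨j', hj'⟩ => ?_, fun x hx => ?_, fun c l x ⟨j, hj⟩ x' ⟨j', hj'⟩ => ?_⟩
  · exact isOpen_iff_eventually.2 fun x ⟨j, hj⟩ =>
      hj.eventually_nhds.mono fun y hy => ⟨j, hy⟩
  · exact (hj.self_of_nhds _ (le_max_left j j')).symm.trans (hj'.self_of_nhds _ (le_max_right j j'))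
  · obtain ⟨j₁, hj₁⟩ := h3 x hx
    by_contra hc
    have hb : ∀ c : Fin (m + 1), ∃ k γ : ℤ,
        |H x k - (22 * A * (c : ℕ) + 22 * (m + 1) * A * γ)| ≤ 10 * A ∧
          ((∀ i, k ≤ i → ¬ Safe M (cell c) i x) ∨ Tail H x k A) := by
      intro c
      by_contra hb
      push Not at hb
      obtain ⟨l, hl⟩ := col_cov hM hA hP hH (h1 c) hj₁ hb
      exact hc ⟨c, l, hl⟩
    choose k γ b1 b2 using hb
    obtain ⟨c₀, -, hc₀⟩ := Finset.exists_max_image Finset.univ k Finset.univ_nonempty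
    have : Nontrivial (Fin (m + 1)) := Fin.nontrivial_iff_two_le.2 (by omega)
    obtain ⟨c', hc'⟩ := exists_ne c₀
    obtain ⟨c₁, h4, hc₁⟩ := Finset.exists_max_image (Finset.univ.erase c₀) k
      ⟨c', Finset.mem_erase.2 ⟨hc', Finset.mem_univ _⟩⟩
    obtain ⟨d, d1, d2⟩ : ∃ d, d ≠ c₀ ∧ Tail H x (k d) A := by
      by_contra hd
      push Not at hd
      refine hd c₁ (Finset.mem_erase.1 h4).1 (h2 x _ c₀ fun c hc i hi => ?_)
      exact ((b2 c).resolve_right (hd c hc)) i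
        ((hc₁ c (Finset.mem_erase.2 ⟨hc, Finset.mem_univ _⟩)).trans hi)
    have e1 := d2 _ (hc₀ d (Finset.mem_univ _))
    have e2 := hH.le x (hc₀ d (Finset.mem_univ _))
    have e3 := abs_le.1 (b1 d)
    have e4 := abs_le.1 (b1 c₀)
    refine (sep_Cover hA d1 (γ d) (γ c₀)).not_gt (abs_lt.2 ⟨?_, ?_⟩) <;>
      linarith [e3.1, e3.2, e4.1, e4.2]
  · have e : (22 * ((m : ℝ) + 1) + 9) * A = 22 * (m + 1) * A + 9 * A := by ring
    rw [e]
    exact col_diam hM A0 hP hH (h1 c) (j₀ := max j j')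
      (fun i hi => hj.self_of_nhds i ((le_max_left _ _).trans hi))
      fun i hi => hj'.self_of_nhds i ((le_max_right _ _).trans hi)

end

end Vale.Agent.P210
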