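import Vale.Agent.P210.Stmt
import Vale.Agent.P098.K.Ibp

/-! P210 Defs: working definitions (owner helper28, overview in notes/P210.md). FROZEN. -/

namespace Vale.Agent.P210

open Set Filter Topology Metric MeasureTheory
open scoped ENNReal

noncomputable section

variable {n : ℕ}

/-- The conformal length of tangent vectors. -/
def sp (w : E n → ℝ) (x v : E n) : ℝ := w x * ‖v‖

/-- The distance of the metric `w ^ 2 δ`. -/
abbrev dd (Ω : Set (E n)) (w : E n → ℝ) : E n → E n → ℝ≥0∞ := rdist Ω (sp w)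

/-- Open domain with a positive continuous weight. -/
structure Dom (Ω : Set (E n)) (w : E n → ℝ) : Prop where
  op : IsOpen Ω
  cont : ContinuousOn w Ω
  pos : ∀ x ∈ Ω, 0 < w x

/-- Closed balls of the distance are compact. -/
def Proper (Ω : Set (E n)) (w : E n → ℝ) : Prop :=
  ∀ x ∈ Ω, ∀ R : ℝ, IsCompact {y | dd Ω w x y ≤ ENNReal.ofReal R}

/-- The weight, extended by zero. -/
def WW (Ω : Set (E n)) (w : E n → ℝ) : E n → ℝ≥0∞ := Ω.indicator fun x => ENNReal.ofReal (w x)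

/-- The cost of the segment from `y` to `y'`. -/
def seg (W : E n → ℝ≥0∞) (y y' : E n) : ℝ≥0∞ :=
  ∫⁻ t in Icc (0 : ℝ) 1, W (y + t • (y' - y)) * ‖y' - y‖ₑ

/-- The scales. -/
def sc (M : ℝ) (k : ℤ) : ℝ := M ^ (-k)

/-- Morrey bound for `v ^ 9` on balls of radius `τ ^ 4`. -/
def Morrey (Ω : Set (E n)) (v : E n → ℝ) (A : ℝ) : Prop :=
  ∀ (x : E n) (τ : ℝ), 0 < τ →
    ∫⁻ y in ball x (τ ^ 4) ∩ Ω, ENNReal.ofReal (v y ^ 9) ≤ ENNReal.ofReal (A * τ ^ (4 * n) / τ ^ 9)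

/-- The `L^1` bound on balls. -/
def L1b (W : E n → ℝ≥0∞) (A : ℝ) : Prop :=
  ∀ (x : E n) (r : ℝ), 0 < r → ∫⁻ y in ball x r, W y ≤ ENNReal.ofReal (A * r ^ n / r)

/-- A tent function. -/
def tent (t : ℝ) : ℝ := max 0 (min 1 (2 - t))

/-- The cost at scale `s` near `x`. -/
def lam (W : E n → ℝ≥0∞) (s : ℝ) (x : E n) : ℝ :=
  s / s ^ n * ∫ y, (W y).toReal * tent (dist y x / s)

/-- The cell map of level `k` is constant near `x`. -/
def Safe (M : ℝ) (cell : ℤ → E n → E n) (k : ℤ) (x : E n) : Prop :=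
  ∀ y, dist y x ≤ 6 * sc M (k + 1) → cell k y = cell k x

/-- The accumulated cost. -/
structure Hgt (M A : ℝ) (H : E n → ℤ → ℝ) : Prop where
  mono : ∀ x k, H x k ≤ H x (k + 1)
  step : ∀ x k, H x (k + 1) ≤ H x k + A
  lip : ∀ x y k, |H x k - H y k| ≤ A * dist x y / sc M k

/-- The cost of all levels from `k` on is at most `B`. -/
def Tail (H : E n → ℤ → ℝ) (x : E n) (k : ℤ) (B : ℝ) : Prop := ∀ j, k ≤ j → H x j ≤ H x k + B

/-- The measure `v ^ 9 dx` on `Ω`. -/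
def mu (Ω : Set (E n)) (v : E n → ℝ) : Measure (E n) :=
  (volume.restrict Ω).withDensity fun y => ENNReal.ofReal (v y ^ 9)

theorem sc_pos {M : ℝ} (hM : 0 < M) (k : ℤ) : 0 < sc M k := zpow_pos hM _

theorem sc_succ {M : ℝ} (hM : 0 < M) (k : ℤ) : sc M (k + 1) = sc M k / M := by
  rw [sc, sc, neg_add, zpow_add₀ hM.ne', zpow_neg_one, div_eq_mul_inv]

theorem sc_anti {M : ℝ} (hM : 1 ≤ M) {k j : ℤ} (h : k ≤ j) : sc M j ≤ sc M k :=
  zpow_le_zpow_right₀ hM (neg_le_neg h)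

end

end Vale.Agent.P210
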