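import Vale.Agent.P210.Defs

/-! P210 Scal: the conformal formula (helper names end with _Scal).
`(conf f x)⁻¹ = exp (-2 f x) • 1` (`Matrix.inv_eq_right_inv`). Near `x` (where `f` is differentiable) `pd l (conf f · i j) = 2 exp (2 f) f_l δ_ij`, so
`chr k i j = δ_jk f_i + δ_ik f_j - δ_ij f_k` on a neighbourhood (`EventuallyEq.fderiv_eq`), `f_i = pd i f`. Then
`ric i j = -(n-2) (f_ij - f_i f_j) - (lap f + (n-2) |df|^2) δ_ij`; only the trace is needed. `P098.D2_apply`, `P098.D2_symm`, `P098.sum_sq_bv`, `Finset.sum_ite_eq`. -/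

namespace Vale.Agent.P210

open Set Filter Topology Metric MeasureTheory
open scoped ENNReal

noncomputable section

variable {n : ℕ} {Ω : Set (E n)}
  {f : E n → ℝ}

theorem speed_conf (f : E n → ℝ) : speed (conf f) = sp fun x => Real.exp (f x) := by
  funext x v
  have h : ∑ i, ∑ j, conf f x i j * v i * v j = (Real.exp (f x) * ‖v‖) ^ 2 := by
    have h1 : ∀ i, ∑ j, conf f x i j * v i * v j = Real.exp (2 * f x) * v i ^ 2 := by
      intro i
      rw [Finset.sum_eq_single i]
      · simp only [conf, Matrix.smul_apply, Matrix.one_apply_eq, smul_eq_mul]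
        ring
      · intro j _ hj
        simp [conf, Matrix.one_apply_ne hj.symm]
      · simp
    rw [Finset.sum_congr rfl fun i _ => h1 i, ← Finset.mul_sum, mul_pow,
      EuclideanSpace.real_norm_sq_eq, ← Real.exp_nat_mul]
    norm_num
  unfold speed sp
  rw [h, Real.sqrt_sq (by positivity)]

/-- Kronecker delta. -/
def dl_Scal (i j : Fin n) : ℝ := if i = j then 1 else 0

theorem inv_Scal (f : E n → ℝ) (x : E n) :
    (conf f x)⁻¹ = Real.exp (-2 * f x) • (1 : Matrix (Fin n) (Fin n) ℝ) := by
  refine Matrix.inv_eq_right_inv ?_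
  rw [conf, Matrix.smul_mul, Matrix.one_mul, smul_smul, ← Real.exp_add]
  simp

theorem pd_Scal {y : E n} (hf : DifferentiableAt ℝ f y) (l i j : Fin n) :
    pd l (fun z => conf f z i j) y = 2 * Real.exp (2 * f y) * pd l f y * dl_Scal i j := by
  have h0 : (fun z => conf f z i j) = fun z => Real.exp (2 * f z) * dl_Scal i j := by
    funext z
    simp [conf, dl_Scal, Matrix.one_apply]
  have h1 := ((hf.hasFDerivAt.const_mul 2).exp).mul_const (dl_Scal i j)
  rw [h0, pd, h1.fderiv]
  simp only [pd, smul_apply, smul_eq_mul]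
  ring

theorem chr_Scal {y : E n} (hf : DifferentiableAt ℝ f y) (k i j : Fin n) :
    chr (conf f) k i j y =
      dl_Scal j k * pd i f y + dl_Scal i k * pd j f y - dl_Scal i j * pd k f y := by
  have he : Real.exp (-2 * f y) * Real.exp (2 * f y) = 1 := by
    rw [← Real.exp_add]
    simp
  unfold chr
  rw [Finset.sum_eq_single k]
  · rw [inv_Scal, pd_Scal hf, pd_Scal hf, pd_Scal hf]
    simp only [Matrix.smul_apply, Matrix.one_apply_eq, smul_eq_mul, mul_one]
    linear_combination
      (dl_Scal j k * pd i f y + dl_Scal i k * pd j f y - dl_Scal i j * pd k f y) * he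
  · intro l _ hl
    rw [inv_Scal]
    simp [Matrix.one_apply_ne hl.symm]
  · simp

theorem dchr_Scal {x : E n} (hf : ContDiffAt ℝ 2 f x) (m k i j : Fin n) :
    pd m (chr (conf f) k i j) x =
      dl_Scal j k * P098.D2 f x (P098.bv m) (P098.bv i) +
        dl_Scal i k * P098.D2 f x (P098.bv m) (P098.bv j) -
          dl_Scal i j * P098.D2 f x (P098.bv m) (P098.bv k) := by
  have hev : chr (conf f) k i j =ᶠ[𝓝 x] fun y =>
      dl_Scal j k * pd i f y + dl_Scal i k * pd j f y - dl_Scal i j * pd k f y := by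
    filter_upwards [hf.eventually (by simp)] with y hy
    exact chr_Scal (hy.differentiableAt (by simp)) k i j
  have hd : DifferentiableAt ℝ (fderiv ℝ f) x :=
    (hf.fderiv_right (m := 1) (by norm_num)).differentiableAt (by simp)
  have hp : ∀ a : Fin n, HasFDerivAt (pd a f) (fderiv ℝ (pd a f) x) x := fun a =>
    (hd.clm_apply (differentiableAt_const (EuclideanSpace.single a (1 : ℝ)))).hasFDerivAt
  have hq : ∀ a : Fin n, P098.D2 f x (P098.bv m) (P098.bv a) =
      fderiv ℝ (pd a f) x (EuclideanSpace.single m 1) := fun a => P098.D2_apply hf _ _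
  have h1 := (((hp i).const_mul (dl_Scal j k)).fun_add ((hp j).const_mul (dl_Scal i k))).fun_sub
    ((hp k).const_mul (dl_Scal i j))
  rw [pd, hev.fderiv_eq, h1.fderiv, hq, hq, hq]
  simp

theorem sum_dl_Scal (i : Fin n) (g : Fin n → ℝ) : ∑ l, dl_Scal i l * g l = g i := by
  simp [dl_Scal]

theorem alg_Scal (a : Fin n → ℝ) (H : Fin n → Fin n → ℝ) :
    ∑ i, ∑ k, ((dl_Scal i k * H k i + dl_Scal i k * H k i - dl_Scal i i * H k k) -
      (dl_Scal k k * H i i + dl_Scal i k * H i k - dl_Scal i k * H i k) +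
      ∑ l, ((dl_Scal l k * a k + dl_Scal k k * a l - dl_Scal k l * a k) *
          (dl_Scal i l * a i + dl_Scal i l * a i - dl_Scal i i * a l) -
        (dl_Scal l k * a i + dl_Scal i k * a l - dl_Scal i l * a k) *
          (dl_Scal k l * a i + dl_Scal i l * a k - dl_Scal i k * a l))) =
      -((n : ℝ) - 1) * (2 * ∑ i, H i i + ((n : ℝ) - 2) * ∑ i, a i ^ 2) := by
  have h1 : ∀ i k l : Fin n,
      (dl_Scal l k * a k + dl_Scal k k * a l - dl_Scal k l * a k) *
          (dl_Scal i l * a i + dl_Scal i l * a i - dl_Scal i i * a l) -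
        (dl_Scal l k * a i + dl_Scal i k * a l - dl_Scal i l * a k) *
          (dl_Scal k l * a i + dl_Scal i l * a k - dl_Scal i k * a l) =
      dl_Scal i l * (2 * a i ^ 2 + a k ^ 2 - 2 * dl_Scal i k * a i ^ 2) -
        dl_Scal k l * a i ^ 2 + (dl_Scal i k - 1) * a l ^ 2 := by
    intro i k l
    by_cases h : i = l
    · subst h
      by_cases h' : i = k
      · subst h'
        simp only [dl_Scal, if_true]
        ring
      · simp only [dl_Scal, if_true, if_neg h', if_neg (Ne.symm h')]
        ring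
    · by_cases h' : i = k
      · subst h'
        simp only [dl_Scal, if_true, if_neg h, if_neg (Ne.symm h)]
        ring
      · by_cases h'' : k = l
        · subst h''
          simp only [dl_Scal, if_true, if_neg h]
          ring
        · simp only [dl_Scal, if_true, if_neg h, if_neg h', if_neg h'', if_neg (Ne.symm h'')]
          ring
  have h2 : ∀ i k : Fin n,
      (dl_Scal i k * H k i + dl_Scal i k * H k i - dl_Scal i i * H k k) -
      (dl_Scal k k * H i i + dl_Scal i k * H i k - dl_Scal i k * H i k) +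
      ∑ l, ((dl_Scal l k * a k + dl_Scal k k * a l - dl_Scal k l * a k) *
          (dl_Scal i l * a i + dl_Scal i l * a i - dl_Scal i i * a l) -
        (dl_Scal l k * a i + dl_Scal i k * a l - dl_Scal i l * a k) *
          (dl_Scal k l * a i + dl_Scal i l * a k - dl_Scal i k * a l)) =
      dl_Scal i k * (2 * H k i - 2 * a i ^ 2 + ∑ l, a l ^ 2) + (a k ^ 2 - H k k) +
        (a i ^ 2 - H i i - ∑ l, a l ^ 2) := by
    intro i k
    rw [Finset.sum_congr rfl fun l _ => h1 i k l, Finset.sum_add_distrib, Finset.sum_sub_distrib,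
      sum_dl_Scal, sum_dl_Scal, ← Finset.mul_sum]
    have e1 : dl_Scal i i = 1 := if_pos rfl
    have e2 : dl_Scal k k = 1 := if_pos rfl
    rw [e1, e2]
    ring
  have h3 : ∀ i : Fin n, ∑ k, (dl_Scal i k * (2 * H k i - 2 * a i ^ 2 + ∑ l, a l ^ 2) +
      (a k ^ 2 - H k k) + (a i ^ 2 - H i i - ∑ l, a l ^ 2)) =
      (2 - n) * H i i + (n - 2) * a i ^ 2 + ((2 - n) * ∑ l, a l ^ 2 - ∑ l, H l l) := by
    intro i
    rw [Finset.sum_add_distrib, Finset.sum_add_distrib, sum_dl_Scal, Finset.sum_sub_distrib]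
    simp only [Finset.sum_const, Finset.card_univ, Fintype.card_fin, nsmul_eq_mul]
    ring
  rw [Finset.sum_congr rfl fun i _ => (Finset.sum_congr rfl fun k _ => h2 i k).trans (h3 i),
    Finset.sum_add_distrib, Finset.sum_add_distrib, ← Finset.mul_sum, ← Finset.mul_sum]
  simp only [Finset.sum_const, Finset.card_univ, Fintype.card_fin, nsmul_eq_mul]
  ring

theorem scal_conf {x : E n} (hf : ContDiffAt ℝ 2 f x) :
    scal (conf f) x = -((n : ℝ) - 1) * Real.exp (-2 * f x) *
      (2 * P098.lap f x + ((n : ℝ) - 2) * ‖fderiv ℝ f x‖ ^ 2) := by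
  have hd : DifferentiableAt ℝ f x := hf.differentiableAt (by simp)
  have h1 : scal (conf f) x = Real.exp (-2 * f x) * ∑ i, ric (conf f) i i x := by
    unfold scal
    rw [Finset.mul_sum, inv_Scal]
    refine Finset.sum_congr rfl fun i _ => ?_
    rw [Finset.sum_eq_single i]
    · simp
    · intro j _ hj
      simp [Matrix.one_apply_ne hj.symm]
    · simp
  have h2 := alg_Scal (fun i => pd i f x) fun m i => P098.D2 f x (P098.bv m) (P098.bv i)
  have h3 : ∑ i, pd i f x ^ 2 = ‖fderiv ℝ f x‖ ^ 2 := P098.sum_sq_bv (fderiv ℝ f x)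
  have h4 : ∑ i, P098.D2 f x (P098.bv i) (P098.bv i) = P098.lap f x := rfl
  rw [h3, h4] at h2
  rw [h1]
  unfold ric
  simp only [dchr_Scal hf, chr_Scal hd]
  rw [h2]
  ring

end

end Vale.Agent.P210
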