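import Vale.Agent.P210.Defs

/-! P210 Key: the energy inequality (helper names end with _Key). First replace `f` by a global `C^2` function `F` equal to `f` near `tsupport ψ`
(smooth `χ` with compact support in `Ω`, equal to `1` near `tsupport ψ`: `exists_contDiff_tsupport_subset`-type lemmas, `exists_smooth_one_nhds_of_subset_interior`, `IsOpen.exists_contDiff_support_eq`; `F = χ * f`; `P098.lap_congr`).
`G t = exp (t / 4) / (1 + ε * exp (t / 4) ^ 9)` is smooth, positive, `G' ≤ G / 4`, `exp (2 t) * G t = exp (t / 4) ^ 9 / (1 + ε * exp (t / 4) ^ 9)`.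
Test function `g = ψ ^ 2 * G (F)` (`P098.loc_mul`, `lip_of_loc`, `exists_radius`), `P098.ibp_lap`: `∫ dot F g = -∫ lap F * g`, and a.e. (`Lip.ae_diff`)
`dot F g = 2 ψ G dot F ψ + ψ ^ 2 G' ‖dF‖ ^ 2` (`dot_self`, `abs_dot_le`). Pointwise
`2 dot F g - (n - 2) ‖dF‖ ^ 2 g ≤ 4 |ψ| ‖dF‖ ‖dψ‖ G - ‖dF‖ ^ 2 ψ ^ 2 G / 2 ≤ 8 G ‖dψ‖ ^ 2`. Integrability by `P098.integrable_of_bdd`, `Lip.bdd`. -/

namespace Vale.Agent.P210

open Set Filter Topology Metric MeasureTheory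
open scoped ENNReal

noncomputable section

variable {n : ℕ} {Ω : Set (E n)}
  {f ψ : E n → ℝ}

theorem alg_Key {m k E l a b p D G G' : ℝ} (hm : 0 ≤ m) (hk : 1 ≤ k) (hG : 0 ≤ G)
    (hG' : G' ≤ G / 4) (hD : |D| ≤ a * b) (hE : p ≠ 0 → E ≤ -m * (2 * l + k * a ^ 2)) :
    E * G * p ^ 2 ≤
      8 * m * (G * b ^ 2) - 2 * m * (l * (p ^ 2 * G) + (2 * p * G * D + p ^ 2 * G' * a ^ 2)) := by
  have h1 : E * G * p ^ 2 ≤ -m * (2 * l + k * a ^ 2) * G * p ^ 2 := by
    rcases eq_or_ne p 0 with rfl | hp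
    · simp
    · exact mul_le_mul_of_nonneg_right (mul_le_mul_of_nonneg_right (hE hp) hG) (sq_nonneg p)
  have h2 : p * D ≤ |p| * (a * b) :=
    (le_abs_self _).trans (by rw [abs_mul]; exact mul_le_mul_of_nonneg_left hD (abs_nonneg p))
  have h3 : 4 * (p * D) ≤ p ^ 2 * a ^ 2 / 2 + 8 * b ^ 2 := by
    nlinarith [sq_nonneg (|p| * a - 4 * b), sq_abs p]
  have h4 := mul_le_mul_of_nonneg_left h3 hG
  have h5 : 0 ≤ p ^ 2 * a ^ 2 := by positivity
  have h6 := mul_le_mul_of_nonneg_right hG' h5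
  have h7 := mul_le_mul_of_nonneg_right hk (mul_nonneg hG h5)
  have h8 : 2 * (2 * p * G * D + p ^ 2 * G' * a ^ 2) ≤ 8 * (G * b ^ 2) + k * (G * (p ^ 2 * a ^ 2)) := by
    linarith
  have h9 := mul_le_mul_of_nonneg_left h8 hm
  linarith

theorem G_Key {ε : ℝ} (hε : 0 < ε) : ∃ G G' : ℝ → ℝ,
    (∀ t, G t = Real.exp (t / 4) / (1 + ε * Real.exp (t / 4) ^ 9)) ∧ ContDiff ℝ 1 G ∧
      (∀ t, HasDerivAt G (G' t) t) ∧ ∀ t, G' t ≤ G t / 4 := by
  have h0 : ∀ t, 0 < 1 + ε * Real.exp (t / 4) ^ 9 := fun t => by positivity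
  have h1 : ∀ t : ℝ, HasDerivAt (fun t : ℝ => Real.exp (t / 4)) (Real.exp (t / 4) * (1 / 4)) t :=
    fun t => ((hasDerivAt_id t).div_const 4).exp
  refine ⟨_, _, fun _ => rfl, ?_, fun t =>
    (h1 t).fun_div ((((h1 t).fun_pow 9).const_mul ε).const_add 1) (h0 t).ne', fun t => ?_⟩
  · exact ContDiff.div (by fun_prop) (by fun_prop) fun t => (h0 t).ne'
  · have h2 := h0 t
    have h3 := Real.exp_pos (t / 4)
    rw [div_le_iff₀ (pow_pos h2 2)]
    have h4 : Real.exp (t / 4) / (1 + ε * Real.exp (t / 4) ^ 9) / 4 *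
        (1 + ε * Real.exp (t / 4) ^ 9) ^ 2 =
        Real.exp (t / 4) * (1 / 4) * (1 + ε * Real.exp (t / 4) ^ 9) := by field_simp
    rw [h4]
    exact sub_le_self _ (by positivity)

theorem glob_Key (hn : 3 ≤ n) (hf : ContDiff ℝ 2 f)
    (hS : ∀ x, ψ x ≠ 0 → Real.exp (2 * f x) ≤
      -((n : ℝ) - 1) * (2 * P098.lap f x + ((n : ℝ) - 2) * ‖fderiv ℝ f x‖ ^ 2))
    {ε : ℝ} (hε : 0 < ε) (hψ : P098.Lip ψ) (hc : HasCompactSupport ψ) :
    ∫ x, Real.exp (f x / 4) ^ 9 / (1 + ε * Real.exp (f x / 4) ^ 9) * ψ x ^ 2 ≤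
      8 * ((n : ℝ) - 1) *
        ∫ x, Real.exp (f x / 4) / (1 + ε * Real.exp (f x / 4) ^ 9) * ‖fderiv ℝ ψ x‖ ^ 2 := by
  obtain ⟨G, G', hG, hG1, hGd, hG4⟩ := G_Key hε
  obtain ⟨R, hR⟩ := P098.exists_radius hc
  obtain ⟨C, hC0, hC, -⟩ := hψ.bdd
  have hn' : (3 : ℝ) ≤ n := by exact_mod_cast hn
  have hf1 : ContDiff ℝ 1 f := hf.of_le (by norm_num)
  have hGf : ContDiff ℝ 1 fun x => G (f x) := hG1.comp hf1
  have hG0 : ∀ t, 0 ≤ G t := fun t => by rw [hG]; positivity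
  have h0 : ∀ x, R ≤ ‖x‖ → ψ x ^ 2 * G (f x) = 0 := fun x hx => by simp [hR x hx]
  have hg : P098.Lip fun x => ψ x ^ 2 * G (f x) := by
    refine P098.lip_of_loc (P098.loc_mul ?_ hGf.locallyLipschitz) h0
    simpa only [sq] using P098.loc_mul hψ.loc hψ.loc
  obtain ⟨i1, e1⟩ := P098.ibp_lap hf hg h0
  have i2 := P098.integrable_dot hf1.locallyLipschitz hg h0
  have i3 : Integrable fun x => G (f x) * ‖fderiv ℝ ψ x‖ ^ 2 :=
    P098.ibp_int (R := R) hGf.continuous.measurable ((measurable_fderiv ℝ ψ).norm.pow_const 2)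
      (P098.ibp_bd hGf.continuous R)
      ⟨C ^ 2, fun x _ => by
        rw [abs_of_nonneg (sq_nonneg _)]
        exact pow_le_pow_left₀ (norm_nonneg _) (hC x) 2⟩
      fun x hx => by simp [P098.ibp_zero hR hx]
  have i4 := i3.const_mul (8 * ((n : ℝ) - 1))
  have i5 : Integrable fun x => 2 * ((n : ℝ) - 1) * (P098.lap f x * (ψ x ^ 2 * G (f x)) +
      P098.dot f (fun x => ψ x ^ 2 * G (f x)) x) := (i1.add i2).const_mul _
  have key := integral_mono_of_nonneg (μ := volume)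
    (f := fun x => Real.exp (f x / 4) ^ 9 / (1 + ε * Real.exp (f x / 4) ^ 9) * ψ x ^ 2)
    (Eventually.of_forall fun x => by positivity) (i4.sub i5) ?_
  · simp only [Pi.sub_apply] at key
    rw [integral_sub i4 i5, integral_const_mul, integral_const_mul, integral_add i1 i2, e1] at key
    simp only [← hG]
    linarith
  · filter_upwards [hψ.ae_diff] with x hx
    have hd := (hx.hasFDerivAt.pow 2).fun_mul
      ((hGd (f x)).comp_hasFDerivAt x (hf1.differentiable one_ne_zero x).hasFDerivAt)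
    have e2 : P098.dot f (fun x => ψ x ^ 2 * G (f x)) x = 2 * ψ x * G (f x) * P098.dot f ψ x +
        ψ x ^ 2 * G' (f x) * ‖fderiv ℝ f x‖ ^ 2 := by
      have hd' : fderiv ℝ (fun x => ψ x ^ 2 * G (f x)) x = _ := hd.fderiv
      rw [← P098.dot_self]
      simp only [P098.dot, hd', Finset.mul_sum, ← Finset.sum_add_distrib]
      refine Finset.sum_congr rfl fun i _ => ?_
      simp
      ring
    have e3 : Real.exp (f x / 4) ^ 9 / (1 + ε * Real.exp (f x / 4) ^ 9) =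
        Real.exp (2 * f x) * G (f x) := by
      rw [hG, show 2 * f x = (8 : ℕ) * (f x / 4) by push_cast; ring, Real.exp_nat_mul]
      ring
    simp only [Pi.sub_apply]
    rw [e2, e3]
    exact alg_Key (by linarith) (by linarith) (hG0 _) (hG4 _) (P098.abs_dot_le f ψ x) (hS x)

theorem key (hn : 3 ≤ n) (hΩ : IsOpen Ω) (hf : ContDiffOn ℝ 2 f Ω)
    (hS : ∀ x ∈ Ω, Real.exp (2 * f x) ≤
      -((n : ℝ) - 1) * (2 * P098.lap f x + ((n : ℝ) - 2) * ‖fderiv ℝ f x‖ ^ 2))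
    {ε : ℝ} (hε : 0 < ε) (hψ : P098.Lip ψ) (hc : HasCompactSupport ψ) (hs : tsupport ψ ⊆ Ω) :
    ∫ x, Real.exp (f x / 4) ^ 9 / (1 + ε * Real.exp (f x / 4) ^ 9) * ψ x ^ 2 ≤
      8 * ((n : ℝ) - 1) *
        ∫ x, Real.exp (f x / 4) / (1 + ε * Real.exp (f x / 4) ^ 9) * ‖fderiv ℝ ψ x‖ ^ 2 := by
  obtain ⟨χ, h0, h1, -⟩ := exists_contMDiffMap_zero_one_nhds_of_isClosed (n := 2)
    (modelWithCornersSelf ℝ (E n)) hΩ.isClosed_compl (isClosed_tsupport ψ)
    (disjoint_compl_left_iff_subset.2 hs)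
  have hχ : ContDiff ℝ 2 χ := χ.contMDiff.contDiff
  have hF : ContDiff ℝ 2 fun x => χ x * f x := by
    refine contDiff_iff_contDiffAt.2 fun x => ?_
    by_cases hx : x ∈ Ω
    · exact hχ.contDiffAt.mul (hf.contDiffAt (hΩ.mem_nhds hx))
    · refine (contDiffAt_const (c := (0 : ℝ))).congr_of_eventuallyEq ?_
      filter_upwards [h0.filter_mono (nhds_le_nhdsSet hx)] with y hy
      rw [hy, zero_mul]
  have he : ∀ x ∈ tsupport ψ, (fun x => χ x * f x) =ᶠ[𝓝 x] f := fun x hx => by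
    filter_upwards [h1.filter_mono (nhds_le_nhdsSet hx)] with y hy
    rw [hy, one_mul]
  have key := glob_Key hn hF (fun x hx => ?_) hε hψ hc
  · refine le_of_eq_of_le (integral_congr_ae (Eventually.of_forall fun x => ?_))
      (key.trans_eq (congrArg _ (integral_congr_ae (Eventually.of_forall fun x => ?_))))
    · by_cases hx : x ∈ tsupport ψ
      · have := (he x hx).eq_of_nhds
        simp only at this ⊢
        rw [this]
      · simp [image_eq_zero_of_notMem_tsupport hx]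
    · by_cases hx : x ∈ tsupport ψ
      · have := (he x hx).eq_of_nhds
        simp only at this ⊢
        rw [this]
      · simp [fderiv_of_notMem_tsupport ℝ hx]
  · have hx' := he x (subset_tsupport ψ hx)
    rw [hx'.eq_of_nhds, P098.lap_congr hx', hx'.fderiv_eq]
    exact hS x (hs (subset_tsupport ψ hx))

end

end Vale.Agent.P210
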