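import Vale.Agent.P210.MorA

/-! P210 Mor: the Morrey bound (helper names end with _Mor). `r = τ ^ 4`. For `a = ζ ^ 2 τ v ≥ 0` and `0 < δ ≤ 1`: `a ≤ δ a ^ 9 + 1 / δ`. Hence
`G ζ ^ 2 / τ ^ 8 ≤ δ F ζ ^ 18 + indicator (closedBall x (2 r)) (1 / (δ τ ^ 9))`; with `1296 (n - 1) δ = 1 / 2` absorb (all integrands are bounded, continuous on `Ω`, and vanish off the ball):
`∫ in Ω, F ζ ^ 18 ≤ 2 * 1296 (n - 1) / (δ τ ^ 9) * vol (closedBall x (2 r))` (`Measure.addHaar_closedBall`). `ζ = 1` on `ball x r`. Let `ε = 1 / (m + 1) → 0`: `lintegral_liminf_le'` or monotone convergence. -/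

namespace Vale.Agent.P210

open Set Filter Topology Metric MeasureTheory
open scoped ENNReal

noncomputable section

variable {n : ℕ} {Ω : Set (E n)}

theorem young_Mor {a δ : ℝ} (ha : 0 ≤ a) (h0 : 0 < δ) (h1 : δ ≤ 1) : a ≤ δ * a ^ 9 + 1 / δ := by
  rcases le_or_gt a (1 / δ) with h | h
  · have : 0 ≤ δ * a ^ 9 := by positivity
    linarith
  · have h2 : 1 < a * δ := (div_lt_iff₀ h0).1 h
    have h3 : 1 ≤ a := by nlinarith
    have h4 : a ≤ a ^ 8 := le_self_pow₀ h3 (by norm_num)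
    have h5 : a ^ 8 * 1 ≤ a ^ 8 * (a * δ) := mul_le_mul_of_nonneg_left h2.le (by positivity)
    have h6 : 0 < 1 / δ := by positivity
    nlinarith

theorem pt_Mor {v ζ τ δ ε : ℝ} (hv : 0 < v) (hτ : 0 < τ) (h0 : 0 < δ) (h1 : δ ≤ 1) (hε : 0 < ε) :
    v / (1 + ε * v ^ 9) * ζ ^ 2 ≤
      τ ^ 8 * δ * (v ^ 9 / (1 + ε * v ^ 9) * ζ ^ 18) + 1 / (δ * τ) := by
  have hD : 1 ≤ 1 + ε * v ^ 9 := le_add_of_nonneg_right (by positivity)
  have h2 := young_Mor (a := ζ ^ 2 * τ * v) (by positivity) h0 h1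
  have h3 := div_le_div_of_nonneg_right h2 (show 0 ≤ τ * (1 + ε * v ^ 9) by positivity)
  have h4 : 1 / δ / (τ * (1 + ε * v ^ 9)) ≤ 1 / (δ * τ) := by
    rw [div_div]
    exact one_div_le_one_div_of_le (by positivity)
      (mul_le_mul_of_nonneg_left (le_mul_of_one_le_right hτ.le hD) h0.le)
  have e1 : ζ ^ 2 * τ * v / (τ * (1 + ε * v ^ 9)) = v / (1 + ε * v ^ 9) * ζ ^ 2 := by
    field_simp
  have e2 : (δ * (ζ ^ 2 * τ * v) ^ 9 + 1 / δ) / (τ * (1 + ε * v ^ 9)) =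
      τ ^ 8 * δ * (v ^ 9 / (1 + ε * v ^ 9) * ζ ^ 18) + 1 / δ / (τ * (1 + ε * v ^ 9)) := by
    field_simp
  rw [e1, e2] at h3
  linarith

theorem tent0_Mor {x y : E n} {r : ℝ} (hr : 0 < r) (h : y ∉ closedBall x (2 * r)) :
    tent (dist y x / r) = 0 := by
  have h1 : 2 < dist y x / r := (lt_div_iff₀ hr).2 (not_le.1 h)
  exact max_eq_left ((min_le_right _ _).trans (by linarith))

theorem tent1_Mor {x y : E n} {r : ℝ} (hr : 0 < r) (h : y ∈ ball x r) :
    tent (dist y x / r) = 1 := by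
  have h1 : dist y x / r < 1 := (div_lt_one hr).2 h
  unfold tent
  rw [min_eq_left (by linarith), max_eq_right zero_le_one]

theorem ind_Mor (x : E n) (r c : ℝ) : Integrable ((closedBall x r).indicator fun _ => c) :=
  (integrable_indicator_iff measurableSet_closedBall).2
    (integrableOn_const measure_closedBall_lt_top.ne)

theorem cont_Mor {v : E n → ℝ} (hv : ContinuousOn v Ω) (h0 : ∀ y, 0 < v y) {ε : ℝ} (hε : 0 < ε) :
    ContinuousOn (fun y => v y ^ 9 / (1 + ε * v y ^ 9)) Ω :=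
  (hv.pow 9).div (continuousOn_const.add (continuousOn_const.mul (hv.pow 9))) fun y _ => by
    have := h0 y
    positivity

theorem int_Mor (hΩ : IsOpen Ω) {v : E n → ℝ} (hv : ContinuousOn v Ω) (h0 : ∀ y, 0 < v y) {ε : ℝ}
    (hε : 0 < ε) (x : E n) {r : ℝ} (hr : 0 < r) :
    IntegrableOn (fun y => v y ^ 9 / (1 + ε * v y ^ 9) * tent (dist y x / r) ^ 18) Ω := by
  have hζ : Continuous fun y : E n => tent (dist y x / r) := by
    unfold tent
    fun_prop
  refine (ind_Mor x (2 * r) (1 / ε)).integrableOn.mono'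
    (((cont_Mor hv h0 hε).mul (hζ.pow 18).continuousOn).aestronglyMeasurable hΩ.measurableSet)
    (Eventually.of_forall fun y => ?_)
  have h1 := h0 y
  have h2 := tent_mem (dist y x / r)
  by_cases hy : y ∈ closedBall x (2 * r)
  · have h3 : v y ^ 9 / (1 + ε * v y ^ 9) ≤ 1 / ε := by
      rw [div_le_div_iff₀ (by positivity) hε]
      linarith
    rw [indicator_of_mem hy, Real.norm_of_nonneg (by positivity)]
    exact (mul_le_of_le_one_right (by positivity) (pow_le_one₀ h2.1 h2.2)).trans h3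
  · rw [indicator_of_notMem hy, tent0_Mor hr hy]
    simp

theorem abs_Mor (hΩ : IsOpen Ω) {v : E n → ℝ} (hv : ContinuousOn v Ω) (h0 : ∀ y, 0 < v y)
    {ε c τ : ℝ} (hε : 0 < ε) (hc : 1 ≤ c) (hτ : 0 < τ) (x : E n)
    (h : ∫ y in Ω, v y ^ 9 / (1 + ε * v y ^ 9) * tent (dist y x / τ ^ 4) ^ 18 ≤
      c / (τ ^ 4) ^ 2 * ∫ y in Ω, v y / (1 + ε * v y ^ 9) * tent (dist y x / τ ^ 4) ^ 2) :
    ∫ y in Ω, v y ^ 9 / (1 + ε * v y ^ 9) * tent (dist y x / τ ^ 4) ^ 18 ≤
      4 * c ^ 2 * volume.real (closedBall x (2 * τ ^ 4)) / τ ^ 9 := by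
  have hr : 0 < τ ^ 4 := by positivity
  have hi := int_Mor hΩ hv h0 hε x hr
  have hδ : 0 < 1 / (2 * c) := by positivity
  have hδ1 : 1 / (2 * c) ≤ 1 := (div_le_one (by positivity)).2 (by linarith)
  have hj := (ind_Mor x (2 * τ ^ 4) (1 / (1 / (2 * c) * τ)))
  have h1 : ∫ y in Ω, v y / (1 + ε * v y ^ 9) * tent (dist y x / τ ^ 4) ^ 2 ≤
      ∫ y in Ω, (τ ^ 8 * (1 / (2 * c)) *
        (v y ^ 9 / (1 + ε * v y ^ 9) * tent (dist y x / τ ^ 4) ^ 18) +
          (closedBall x (2 * τ ^ 4)).indicator (fun _ => 1 / (1 / (2 * c) * τ)) y) := by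
    refine integral_mono_of_nonneg (Eventually.of_forall fun y => ?_)
      ((hi.const_mul _).add hj.integrableOn) (Eventually.of_forall fun y => ?_)
    · have := h0 y
      positivity
    · by_cases hy : y ∈ closedBall x (2 * τ ^ 4)
      · simp only [indicator_of_mem hy]
        exact pt_Mor (h0 y) hτ hδ hδ1 hε
      · simp [indicator_of_notMem hy, tent0_Mor hr hy]
  rw [integral_add (hi.const_mul _) hj.integrableOn, integral_const_mul] at h1
  have h2 := setIntegral_le_integral (s := Ω) hj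
    (Eventually.of_forall fun y => indicator_nonneg (fun _ _ => by positivity) y)
  rw [integral_indicator_const (μ := volume) _ measurableSet_closedBall, smul_eq_mul] at h2
  have h3 := h.trans (mul_le_mul_of_nonneg_left (h1.trans (add_le_add_right h2 _)) (by positivity))
  generalize ∫ y in Ω, v y ^ 9 / (1 + ε * v y ^ 9) * tent (dist y x / τ ^ 4) ^ 18 = X at h3 ⊢
  generalize volume.real (closedBall x (2 * τ ^ 4)) = V at h3 ⊢
  have e : c / (τ ^ 4) ^ 2 * (τ ^ 8 * (1 / (2 * c)) * X + V * (1 / (1 / (2 * c) * τ))) =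
      X / 2 + 4 * c ^ 2 * V / τ ^ 9 / 2 := by
    field_simp
    ring
  linarith

theorem lim_Mor (hΩ : IsOpen Ω) {v : E n → ℝ} (hv : ContinuousOn v Ω) (h0 : ∀ y, 0 < v y) (x : E n)
    {r B : ℝ} (hr : 0 < r) (h : ∀ ε : ℝ, 0 < ε →
      ∫ y in Ω, v y ^ 9 / (1 + ε * v y ^ 9) * tent (dist y x / r) ^ 18 ≤ B) :
    ∫⁻ y in ball x r ∩ Ω, ENNReal.ofReal (v y ^ 9) ≤ ENNReal.ofReal B := by
  have hm : MeasurableSet (ball x r ∩ Ω) := measurableSet_ball.inter hΩ.measurableSet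
  have h1 : ∀ ε : ℝ, 0 < ε → ∫⁻ y in ball x r ∩ Ω,
      ENNReal.ofReal (v y ^ 9 / (1 + ε * v y ^ 9)) ≤ ENNReal.ofReal B := fun ε hε => by
    refine le_trans ?_ (ENNReal.ofReal_le_ofReal (h ε hε))
    rw [ofReal_integral_eq_lintegral_ofReal (int_Mor hΩ hv h0 hε x hr)
      (Eventually.of_forall fun y => by
        have := h0 y
        positivity)]
    refine le_trans (setLIntegral_congr_fun hm fun y hy => ?_).le
      (lintegral_mono_set inter_subset_right)
    simp only [tent1_Mor hr hy.1, one_pow, mul_one]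
  have h2 := lintegral_liminf_le' (μ := volume.restrict (ball x r ∩ Ω)) (u := atTop)
    (f := fun (m : ℕ) y => ENNReal.ofReal (v y ^ 9 / (1 + 1 / ((m : ℝ) + 1) * v y ^ 9)))
    fun m => (((cont_Mor hv h0 Nat.one_div_pos_of_nat).mono inter_subset_right).aemeasurable
      hm).ennreal_ofReal
  refine le_trans (lintegral_congr fun y => ?_).le (h2.trans (liminf_le_of_frequently_le'
    (Frequently.of_forall fun m => h1 _ Nat.one_div_pos_of_nat)))
  refine (Tendsto.liminf_eq (ENNReal.tendsto_ofReal ?_)).symm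
  have h3 := (tendsto_const_nhds (x := v y ^ 9)).div ((tendsto_const_nhds (x := (1 : ℝ))).add
    ((tendsto_one_div_add_atTop_nhds_zero_nat (𝕜 := ℝ)).mul_const (v y ^ 9))) (by simp)
  rw [zero_mul, add_zero, div_one] at h3
  exact h3

theorem morrey (hn : 3 ≤ n) : ∃ A : ℝ, 0 < A ∧ ∀ (Ω : Set (E n)) (f : E n → ℝ), IsOpen Ω →
    IsPreconnected Ω → ContDiffOn ℝ 2 f Ω → (Proper Ω fun x => Real.exp (f x)) →
    (∀ x ∈ Ω, Real.exp (2 * f x) ≤
      -((n : ℝ) - 1) * (2 * P098.lap f x + ((n : ℝ) - 2) * ‖fderiv ℝ f x‖ ^ 2)) →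
    Morrey Ω (fun x => Real.exp (f x / 4)) A := by
  have h3 : (3 : ℝ) ≤ n := by exact_mod_cast hn
  have hB : 0 ≤ volume.real (ball (0 : E n) 1) := measureReal_nonneg
  refine ⟨4 * (1296 * ((n : ℝ) - 1)) ^ 2 * (2 ^ n * volume.real (ball (0 : E n) 1)) + 1,
    by positivity, fun Ω f hΩ hc hf hP hS x τ hτ => ?_⟩
  have hv : ContinuousOn (fun y => Real.exp (f y / 4)) Ω :=
    (hf.continuousOn.div_const 4).rexp
  have hr : 0 < τ ^ 4 := by positivity
  refine lim_Mor hΩ hv (fun y => Real.exp_pos _) x hr fun ε hε => ?_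
  refine (abs_Mor hΩ hv (fun y => Real.exp_pos _) hε (by linarith) hτ x
    (mor_a hn hΩ hc hf hP hS hε x hr)).trans (div_le_div_of_nonneg_right ?_ (by positivity))
  rw [Measure.addHaar_real_closedBall _ _ (by positivity), finrank_euclideanSpace_fin,
    mul_pow 2 (τ ^ 4), ← pow_mul]
  have h4 : 0 < τ ^ (4 * n) := by positivity
  nlinarith

end

end Vale.Agent.P210
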