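import Vale.Agent.P210.Key
import Vale.Agent.P210.Cut

/-! P210 MorA: removing the intrinsic cutoff (helper names end with _MorA). `v = exp (f / 4)`, `w = exp f = v ^ 4`, `F = v ^ 9 / (1 + ε v ^ 9) ≤ 1 / ε`, `G = v / (1 + ε v ^ 9) ≤ 1 + 1 / ε`, `G w ^ 2 = F`.
`ζ y = tent (dist y x / r)` is `1 / r`-Lipschitz with values in `[0, 1]` and support in `closedBall x (2 r)`. Apply `key` to `ψ = ζ ^ 9 * η R` (`cutoff`).
`Lip ψ`: `P098.lip_pt` (`w` is bounded on the compact support, off it `ψ` is locally zero). At every point `y ∈ Ω` where `η R` is differentiable (a.e., `η R` is `Lip`) and `ζ` is differentiable,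
`‖fderiv ψ y‖ ≤ ζ ^ 9 ‖fderiv η‖ + 9 ζ ^ 8 / r`, `‖fderiv η y‖ ≤ w y` (`norm_fderiv_le_of_lip'`, `le_of_forall_pos_le_add`), and `fderiv η y = 0` on the open set `O R = interior {η R = 1}`.
So `∫ F ψ ^ 2 ≤ 16 (n - 1) (∫ in Ω, indicator (O R)ᶜ (F ζ ^ 18) + 81 / r ^ 2 ∫ in Ω, G ζ ^ 2)`; dominated convergence as `R → ∞`. -/

namespace Vale.Agent.P210

open Set Filter Topology Metric MeasureTheory
open scoped ENNReal

noncomputable section

variable {n : ℕ} {Ω : Set (E n)}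
  {f : E n → ℝ}

theorem tent_mem (t : ℝ) : 0 ≤ tent t ∧ tent t ≤ 1 := by
  exact ⟨le_max_left _ _, max_le zero_le_one (min_le_left _ _)⟩

theorem tent_MorA (a b : ℝ) : |tent a - tent b| ≤ |a - b| := by
  have h1 := le_abs_self (a - b)
  have h2 := neg_abs_le (a - b)
  simp only [tent, max_def, min_def]
  split_ifs <;> exact abs_le.2 ⟨by linarith, by linarith⟩

theorem int_MorA (hΩ : IsOpen Ω) {H ζ : E n → ℝ} (hH : ContinuousOn H Ω) {B ρ : ℝ} {x : E n}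
    (hB : ∀ y, 0 ≤ H y ∧ H y ≤ B) (hζ : Continuous ζ) (h1 : ∀ y, 0 ≤ ζ y ∧ ζ y ≤ 1)
    (h0 : ∀ y ∉ closedBall x ρ, ζ y = 0) {k : ℕ} (hk : k ≠ 0) :
    Integrable (fun y => H y * ζ y ^ k) (volume.restrict Ω) := by
  have hI : Integrable ((closedBall x ρ).indicator fun _ => B) :=
    (integrableOn_const measure_closedBall_lt_top.ne).integrable_indicator measurableSet_closedBall
  refine hI.restrict.mono' ((hH.mul (hζ.pow k).continuousOn).aestronglyMeasurable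
    hΩ.measurableSet) (Eventually.of_forall fun y => ?_)
  by_cases hy : y ∈ closedBall x ρ
  · rw [indicator_of_mem hy, Real.norm_of_nonneg (mul_nonneg (hB y).1 (pow_nonneg (h1 y).1 _))]
    exact (mul_le_of_le_one_right (hB y).1 (pow_le_one₀ (h1 y).1 (h1 y).2)).trans (hB y).2
  · rw [indicator_of_notMem hy, h0 y hy, zero_pow hk, mul_zero, norm_zero]

theorem lip_MorA {η w : E n → ℝ} (hw : ContinuousOn w Ω) (hc : HasCompactSupport η)
    (hs : tsupport η ⊆ Ω)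
    (h : ∀ x ∈ Ω, ∀ ε : ℝ, 0 < ε → ∀ᶠ y in 𝓝 x, |η y - η x| ≤ (w x + ε) * dist y x) :
    P098.Lip η := by
  obtain ⟨C, hC⟩ := hc.isCompact.exists_bound_of_continuousOn (hw.mono hs)
  refine P098.lip_pt (C := |C| + 1) fun x => ?_
  by_cases hx : x ∈ tsupport η
  · filter_upwards [h x (hs hx) 1 one_pos] with y hy
    rw [dist_eq_norm] at hy
    refine hy.trans (mul_le_mul_of_nonneg_right ?_ (norm_nonneg _))
    linarith [le_abs_self C, le_abs_self (w x), (Real.norm_eq_abs _).symm.trans_le (hC x hx)]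
  · filter_upwards [notMem_tsupport_iff_eventuallyEq.1 hx] with y hy
    rw [hy, image_eq_zero_of_notMem_tsupport hx, Pi.zero_apply, sub_zero, abs_zero]
    positivity

theorem der_MorA {η ζ : E n → ℝ} {y : E n} (hη : DifferentiableAt ℝ η y)
    (hζ : DifferentiableAt ℝ ζ y) {a b : ℝ} (ha : ‖fderiv ℝ η y‖ ≤ a) (hb : ‖fderiv ℝ ζ y‖ ≤ b)
    (h1 : 0 ≤ η y ∧ η y ≤ 1) (h2 : 0 ≤ ζ y ∧ ζ y ≤ 1) :
    ‖fderiv ℝ (fun z => ζ z ^ 9 * η z) y‖ ^ 2 ≤ 2 * (a ^ 2 * ζ y ^ 18) + 162 * b ^ 2 * ζ y ^ 2 := by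
  have h3 := ((hζ.hasFDerivAt.pow 9).fun_mul hη.hasFDerivAt).fderiv
  have h4 : ‖fderiv ℝ (fun z => ζ z ^ 9 * η z) y‖ ≤ ζ y ^ 9 * a + 9 * ζ y * b := by
    rw [h3]
    refine (norm_add_le _ _).trans (add_le_add ?_ ?_)
    · rw [norm_smul, Real.norm_of_nonneg (pow_nonneg h2.1 _)]
      exact mul_le_mul_of_nonneg_left ha (pow_nonneg h2.1 _)
    · have h5 : ζ y ^ 8 ≤ ζ y := pow_le_of_le_one h2.1 h2.2 (by norm_num)
      have h6 := pow_nonneg h2.1 (9 - 1)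
      rw [norm_smul, norm_smul, Real.norm_of_nonneg h1.1, nsmul_eq_mul,
        Real.norm_of_nonneg (by positivity)]
      refine (mul_le_of_le_one_left (by positivity) h1.2).trans
        (mul_le_mul ?_ hb (norm_nonneg _) (by linarith [h2.1]))
      push_cast
      linarith
  refine (pow_le_pow_left₀ (norm_nonneg _) h4 2).trans ?_
  nlinarith [sq_nonneg (ζ y ^ 9 * a - 9 * ζ y * b)]

theorem abs_MorA (hΩ : IsOpen Ω) {F G w ζ : E n → ℝ} {η : ℕ → E n → ℝ} {B ρ b c : ℝ} {x : E n}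
    (hF : ContinuousOn F Ω) (hG : ContinuousOn G Ω) (hw : ContinuousOn w Ω) (w0 : ∀ y, 0 ≤ w y)
    (F0 : ∀ y, 0 ≤ F y ∧ F y ≤ B) (G0 : ∀ y, 0 ≤ G y ∧ G y ≤ B) (e : ∀ y, G y * w y ^ 2 = F y)
    (b0 : 0 ≤ b) (hζ : ∀ y z, |ζ y - ζ z| ≤ b * ‖y - z‖) (h1 : ∀ y, 0 ≤ ζ y ∧ ζ y ≤ 1)
    (h0 : ∀ y ∉ closedBall x ρ, ζ y = 0) (c0 : 0 ≤ c)
    (hk : ∀ ψ, P098.Lip ψ → HasCompactSupport ψ → tsupport ψ ⊆ Ω →
      ∫ y, F y * ψ y ^ 2 ≤ c * ∫ y, G y * ‖fderiv ℝ ψ y‖ ^ 2)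
    (e1 : ∀ R, HasCompactSupport (η R) ∧ tsupport (η R) ⊆ Ω) (e2 : ∀ R y, 0 ≤ η R y ∧ η R y ≤ 1)
    (e3 : ∀ R, ∀ x ∈ Ω, ∀ ε : ℝ, 0 < ε → ∀ᶠ y in 𝓝 x, |η R y - η R x| ≤ (w x + ε) * dist y x)
    (e4 : ∀ x ∈ Ω, ∀ᶠ R in atTop, ∀ᶠ y in 𝓝 x, η R y = 1) :
    ∫ y in Ω, F y * ζ y ^ 18 ≤ c * (162 * b ^ 2 * ∫ y in Ω, G y * ζ y ^ 2) := by
  have lζ : P098.Lip ζ := P098.lip_mk hζ
  have lη := fun R => lip_MorA hw (e1 R).1 (e1 R).2 (e3 R)
  have i1 := int_MorA hΩ hF F0 lζ.continuous h1 h0 (k := 18) (by norm_num)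
  have i2 := int_MorA hΩ hG G0 lζ.continuous h1 h0 (k := 2) (by norm_num)
  have p1 : ∀ y, 0 ≤ F y * ζ y ^ 18 := fun y => mul_nonneg (F0 y).1 (pow_nonneg (h1 y).1 _)
  have mO : ∀ R, MeasurableSet {y | ∀ᶠ z in 𝓝 y, η R z = 1}ᶜ := fun R =>
    isOpen_setOfPred_eventually_nhds.measurableSet.compl
  have t1 : Tendsto (fun R => ∫ y in Ω, F y * (ζ y ^ 9 * η R y) ^ 2) atTop
      (𝓝 (∫ y in Ω, F y * ζ y ^ 18)) := by
    refine tendsto_integral_of_dominated_convergence _ (fun R => (hF.mul (((lζ.continuous.pow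
      9).mul (lη R).continuous).pow 2).continuousOn).aestronglyMeasurable hΩ.measurableSet) i1
      (fun R => Eventually.of_forall fun y => ?_)
      ((ae_restrict_mem hΩ.measurableSet).mono fun y hy => tendsto_const_nhds.congr' ?_)
    · rw [Real.norm_of_nonneg (mul_nonneg (F0 y).1 (sq_nonneg _)),
        show F y * (ζ y ^ 9 * η R y) ^ 2 = F y * ζ y ^ 18 * η R y ^ 2 by ring]
      exact mul_le_of_le_one_right (p1 y) (pow_le_one₀ (e2 R y).1 (e2 R y).2)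
    · filter_upwards [e4 y hy] with R hR
      rw [hR.self_of_nhds]
      ring
  have t2 : Tendsto (fun R => ∫ y in Ω, {y | ∀ᶠ z in 𝓝 y, η R z = 1}ᶜ.indicator
      (fun y => F y * ζ y ^ 18) y) atTop (𝓝 (∫ _ in Ω, 0)) := by
    refine tendsto_integral_of_dominated_convergence _ (fun R => (i1.indicator (mO R)).1) i1
      (fun R => Eventually.of_forall fun y => (norm_indicator_le_norm_self _ _).trans_eq
        (Real.norm_of_nonneg (p1 y)))
      ((ae_restrict_mem hΩ.measurableSet).mono fun y hy => tendsto_const_nhds.congr' ?_)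
    filter_upwards [e4 y hy] with R hR
    exact (indicator_of_notMem (not_not.2 hR) _).symm
  have t3 := ((t2.const_mul 2).add_const (162 * b ^ 2 * ∫ y in Ω, G y * ζ y ^ 2)).const_mul c
  rw [integral_zero, mul_zero, zero_add] at t3
  refine le_of_tendsto_of_tendsto' t1 t3 fun R => ?_
  have s1 : HasCompactSupport fun y => ζ y ^ 9 * η R y := (e1 R).1.mul_left
  have s2 : tsupport (fun y => ζ y ^ 9 * η R y) ⊆ Ω := tsupport_mul_subset_right.trans (e1 R).2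
  obtain ⟨r, hr⟩ := P098.exists_radius s1
  have s3 := hk (fun y => ζ y ^ 9 * η R y) (P098.lip_of_loc (P098.loc_mul ((contDiff_id.pow 9 :
    ContDiff ℝ 1 fun t : ℝ => t ^ 9).locallyLipschitz.comp lζ.loc) (lη R).loc) hr) s1 s2
  rw [← setIntegral_eq_integral_of_forall_compl_eq_zero (s := Ω) fun y hy => by
      rw [image_eq_zero_of_notMem_tsupport fun k => hy (s2 k)]; simp,
    ← setIntegral_eq_integral_of_forall_compl_eq_zero (s := Ω)
      (f := fun y => G y * ‖fderiv ℝ (fun y => ζ y ^ 9 * η R y) y‖ ^ 2) fun y hy => by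
      rw [fderiv_of_notMem_tsupport ℝ fun k => hy (s2 k)]; simp] at s3
  refine s3.trans (mul_le_mul_of_nonneg_left ?_ c0)
  have j1 := (i1.indicator (mO R)).const_mul 2
  have j2 := i2.const_mul (162 * b ^ 2)
  rw [← integral_const_mul, ← integral_const_mul, ← integral_add j1 j2]
  refine integral_mono_of_nonneg (Eventually.of_forall fun y => mul_nonneg (G0 y).1 (sq_nonneg _))
    (j1.add j2) ?_
  filter_upwards [ae_restrict_mem hΩ.measurableSet, ae_restrict_of_ae lζ.ae_diff,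
    ae_restrict_of_ae (lη R).ae_diff] with y hy d1 d2
  have d3 : ‖fderiv ℝ ζ y‖ ≤ b := norm_fderiv_le_of_lip' ℝ b0 (Eventually.of_forall fun z => hζ z y)
  by_cases hO : ∀ᶠ z in 𝓝 y, η R z = 1
  · have d4 : ‖fderiv ℝ (η R) y‖ ≤ 0 := by
      rw [Filter.EventuallyEq.fderiv_eq (f := fun _ => (1 : ℝ)) hO]
      simp
    have d5 := mul_le_mul_of_nonneg_left (der_MorA d2 d1 d4 d3 (e2 R y) (h1 y)) (G0 y).1
    rw [indicator_of_notMem (not_not.2 hO)]
    linarith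
  · have d4 : ‖fderiv ℝ (η R) y‖ ≤ w y := le_of_forall_pos_le_add fun δ hδ =>
      norm_fderiv_le_of_lip' ℝ (add_nonneg (w0 y) hδ.le) ((e3 R y hy δ hδ).mono fun z hz => by
        rwa [dist_eq_norm] at hz)
    have d5 := mul_le_mul_of_nonneg_left (der_MorA d2 d1 d4 d3 (e2 R y) (h1 y)) (G0 y).1
    rw [indicator_of_mem (s := {y | ∀ᶠ z in 𝓝 y, η R z = 1}ᶜ) hO, ← e y]
    linarith

theorem mor_a (hn : 3 ≤ n) (hΩ : IsOpen Ω) (hc : IsPreconnected Ω) (hf : ContDiffOn ℝ 2 f Ω)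
    (hP : Proper Ω fun x => Real.exp (f x))
    (hS : ∀ x ∈ Ω, Real.exp (2 * f x) ≤
      -((n : ℝ) - 1) * (2 * P098.lap f x + ((n : ℝ) - 2) * ‖fderiv ℝ f x‖ ^ 2))
    {ε : ℝ} (hε : 0 < ε) (x : E n) {r : ℝ} (hr : 0 < r) :
    ∫ y in Ω, Real.exp (f y / 4) ^ 9 / (1 + ε * Real.exp (f y / 4) ^ 9) * tent (dist y x / r) ^ 18 ≤
      1296 * ((n : ℝ) - 1) / r ^ 2 * ∫ y in Ω,
        Real.exp (f y / 4) / (1 + ε * Real.exp (f y / 4) ^ 9) * tent (dist y x / r) ^ 2 := by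
  have hv : ContinuousOn (fun y => Real.exp (f y / 4)) Ω := (hf.continuousOn.div_const 4).rexp
  have hd : ∀ y, 0 < 1 + ε * Real.exp (f y / 4) ^ 9 := fun y => by positivity
  have hD := (continuousOn_const (c := (1 : ℝ))).add ((hv.pow 9).const_mul ε)
  obtain ⟨η, e1, e2, e3, e4⟩ := cutoff ⟨hΩ, hf.continuousOn.rexp, fun y _ => Real.exp_pos _⟩ hP hc
  have n1 : (0 : ℝ) ≤ n - 1 := sub_nonneg.2 (Nat.one_le_cast.2 (by omega))
  have i1 : ε⁻¹ * ε = 1 := inv_mul_cancel₀ hε.ne'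
  have i2 : 0 < ε⁻¹ := inv_pos.2 hε
  refine (abs_MorA hΩ (B := 1 + ε⁻¹) (ρ := 2 * r) (b := r⁻¹) (x := x)
    (F := fun y => Real.exp (f y / 4) ^ 9 / (1 + ε * Real.exp (f y / 4) ^ 9))
    (G := fun y => Real.exp (f y / 4) / (1 + ε * Real.exp (f y / 4) ^ 9))
    (ζ := fun y => tent (dist y x / r)) ((hv.pow 9).div hD fun y _ => (hd y).ne')
    (hv.div hD fun y _ => (hd y).ne') hf.continuousOn.rexp (fun y => (Real.exp_pos _).le)
    (fun y => ⟨by positivity, ?_⟩) (fun y => ⟨by positivity, ?_⟩) (fun y => ?_) (by positivity)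
    (fun y z => (tent_MorA _ _).trans ?_) (fun y => tent_mem _) (fun y hy => ?_) (by positivity)
    (fun ψ => key hn hΩ hf hS hε) e1 e2 e3 e4).trans_eq (by ring)
  · have h1 : 0 < Real.exp (f y / 4) ^ 9 := by positivity
    refine (div_le_iff₀ (hd y)).2 ?_
    nlinarith [mul_pos hε h1]
  · have h0 := Real.exp_pos (f y / 4)
    have h1 : 0 < Real.exp (f y / 4) ^ 9 := by positivity
    have h2 : Real.exp (f y / 4) ≤ 1 + Real.exp (f y / 4) ^ 9 := by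
      rcases le_total (Real.exp (f y / 4)) 1 with h | h
      · linarith
      · linarith [le_self_pow₀ h (by norm_num : 9 ≠ 0)]
    refine (div_le_iff₀ (hd y)).2 ?_
    nlinarith [mul_pos hε h1]
  · have h1 : Real.exp (f y) = Real.exp (f y / 4) ^ 4 := by
      rw [← Real.exp_nat_mul]
      congr 1
      push_cast
      ring
    show Real.exp (f y / 4) / _ * Real.exp (f y) ^ 2 = Real.exp (f y / 4) ^ 9 / _
    rw [h1]
    ring
  · rw [← sub_div, abs_div, abs_of_pos hr, div_eq_inv_mul, ← dist_eq_norm]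
    exact mul_le_mul_of_nonneg_left (abs_dist_sub_le _ _ _) (by positivity)
  · have h1 : 2 < dist y x / r := (lt_div_iff₀ hr).2 (not_le.1 hy)
    exact max_eq_left (min_le_of_right_le (by linarith))

end

end Vale.Agent.P210
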