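import Vale.Agent.P210.Net

/-! P210 Gen: generic cells (helper names end with _Gen). `N`, `D` from `exists_net`; `W = 9 s / M`, `J = ⌊M / 27⌋₊ ≥ M / 54`, `Q = D * (D + 1) ^ (m + 1)`, `K = 54 (Q + 1)`, `θ = Q / J ≤ K / M`.
`radii`: induction on the number `j` of colours. For `ρ : ℕ → E n → ℝ`, `z₀` and `ω : Fin j → Option (E n)` put `T z₀ ω = ball z₀ (2 s) ∩ ⋂ c, (strip (ω c) (ρ c))` (no condition if `ω c = none`).
The new radius at `z` comes from `pigeon` applied to `F = t ×ˢ Fintype.piFinset (fun _ => insertNone t)`, `t` the finite set of net points within `10 s` of `z` (`choose`); `Function.update ρ j`.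
`generic`: `cell c y = Classical.epsilon fun z => z ∈ N ∧ dist y z < ρ c z`. If `cell c y ≠ cell c x` then for some `z ∈ N` exactly one of `dist y z < ρ c z`, `dist x z < ρ c z` holds, so `|dist x z - ρ c z| ≤ 6 s / M`,
`dist x z ≤ 3 s`, and `ball x (3 s / M)` lies in the strip. Take `z₀ ∈ N` with `dist x z₀ < s`; `ball x (3 s / M) ⊆ ball z₀ (2 s) ⊆ ball x (3 s)`; `S = univ.erase c₀` mapped to `ℕ` has `m` elements. -/

namespace Vale.Agent.P210

open Set Filter Topology Metric MeasureTheory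
open scoped ENNReal

noncomputable section

variable {n : ℕ} {Ω : Set (E n)}

theorem meas_Gen {ι : Type} (ω : ι → Option (E n)) (r : ι → E n → ℝ) (W : ℝ) :
    MeasurableSet {y : E n | ∀ c, ∀ ζ, ω c = some ζ → |dist y ζ - r c ζ| ≤ W} := by
  simp only [Set.ofPred_forall]
  exact (isClosed_iInter fun c => isClosed_iInter fun ζ => isClosed_iInter fun _ =>
    isClosed_le (by fun_prop) continuous_const).measurableSet

theorem radii {N : Set (E n)} {D J : ℕ} {s W : ℝ} (hs : 0 < s) (hW : 0 < W) (hJ : 0 < J)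
    (h : 3 * W * J ≤ s)
    (hN : ∀ x, ∃ t : Finset (E n), t.card ≤ D ∧ ∀ z ∈ N, dist z x ≤ 10 * s → z ∈ t)
    (μ : Measure (E n)) [IsFiniteMeasureOnCompacts μ] (p j : ℕ) (hj : j ≤ p) :
    ∃ ρ : ℕ → E n → ℝ, (∀ c z, ρ c z ∈ Icc s (2 * s)) ∧
      ∀ z₀ ∈ N, ∀ S : Finset ℕ, S ⊆ Finset.range j → ∀ ζ : ℕ → E n,
        (∀ c ∈ S, ζ c ∈ N ∧ dist (ζ c) z₀ ≤ 4 * s) →
        μ.real (ball z₀ (2 * s) ∩ {y | ∀ c ∈ S, |dist y (ζ c) - ρ c (ζ c)| ≤ W}) ≤
          ((D * (D + 1) ^ p : ℕ) / J : ℝ) ^ S.card * μ.real (ball z₀ (2 * s)) := by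
  classical
  induction j with
  | zero =>
    refine ⟨fun _ _ => s, fun _ _ => ⟨le_rfl, by linarith⟩, fun z₀ _ S hS ζ _ => ?_⟩
    obtain rfl : S = ∅ := Finset.subset_empty.1 hS
    simp
  | succ j ih =>
    obtain ⟨ρ, h1, h2⟩ := ih (Nat.le_of_succ_le hj)
    choose t ht1 ht2 using hN
    have hp := fun z => pigeon μ
      (t z ×ˢ Fintype.piFinset fun _ : Fin j => Finset.insertNone (t z))
      (fun i => ball i.1 (2 * s) ∩ {y | ∀ c : Fin j, ∀ ζ, i.2 c = some ζ → |dist y ζ - ρ c ζ| ≤ W})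
      (fun i _ => ⟨measurableSet_ball.inter (meas_Gen _ _ _),
        ((measure_mono inter_subset_left).trans_lt measure_ball_lt_top).ne⟩)
      (Q := D * (D + 1) ^ p) (by
        rw [Finset.card_product, Fintype.card_piFinset_const, Finset.card_insertNone]
        exact Nat.mul_le_mul (ht1 z) ((Nat.pow_le_pow_left (Nat.succ_le_succ (ht1 z)) j).trans
          (Nat.pow_le_pow_right (Nat.succ_pos D) (Nat.le_of_succ_le hj)))) hJ hW h z
    choose r hr1 hr2 using hp
    refine ⟨Function.update ρ j r, fun c z => ?_, fun z₀ hz S hS ζ hζ => ?_⟩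
    · by_cases hc : c = j
      · rw [hc, Function.update_self]
        exact hr1 z
      · rw [Function.update_of_ne hc]
        exact h1 c z
    have hS' : S.erase j ⊆ Finset.range j := fun c hc => by
      have a1 := Finset.mem_range.1 (hS (Finset.mem_of_mem_erase hc))
      have a2 := Finset.ne_of_mem_erase hc
      exact Finset.mem_range.2 (by omega)
    have a3 := h2 z₀ hz _ hS' ζ fun c hc => hζ c (Finset.mem_of_mem_erase hc)
    have hf : μ (ball z₀ (2 * s) ∩ {y | ∀ c ∈ S.erase j, |dist y (ζ c) - ρ c (ζ c)| ≤ W}) ≠ ∞ :=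
      ((measure_mono inter_subset_left).trans_lt measure_ball_lt_top).ne
    have hsub : ball z₀ (2 * s) ∩ {y | ∀ c ∈ S, |dist y (ζ c) - Function.update ρ j r c (ζ c)| ≤ W} ⊆
        ball z₀ (2 * s) ∩ {y | ∀ c ∈ S.erase j, |dist y (ζ c) - ρ c (ζ c)| ≤ W} :=
      inter_subset_inter_right _ fun y hy c hc => by
        have a4 := hy c (Finset.mem_of_mem_erase hc)
        rwa [Function.update_of_ne (Finset.ne_of_mem_erase hc)] at a4
    by_cases hjS : j ∈ S
    · have a5 := hr2 (ζ j) (z₀, fun c : Fin j => if (c : ℕ) ∈ S then some (ζ c) else none)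
        (Finset.mem_product.2 ⟨ht2 _ _ hz (by rw [dist_comm]; linarith [(hζ j hjS).2]),
          Fintype.mem_piFinset.2 fun c => by
            by_cases hc : (c : ℕ) ∈ S
            · simp only [if_pos hc, Finset.some_mem_insertNone]
              refine ht2 _ _ (hζ c hc).1 ?_
              linarith [dist_triangle_right (ζ c) (ζ j) z₀, (hζ c hc).2, (hζ j hjS).2]
            · simp only [if_neg hc, Finset.none_mem_insertNone]⟩)
      have e : {y : E n | ∀ c : Fin j, ∀ ζ', (if (c : ℕ) ∈ S then some (ζ c) else none) = some ζ' →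
          |dist y ζ' - ρ c ζ'| ≤ W} = {y | ∀ c ∈ S.erase j, |dist y (ζ c) - ρ c (ζ c)| ≤ W} := by
        ext y
        refine ⟨fun hy c hc => hy ⟨c, Finset.mem_range.1 (hS' hc)⟩ _
          (if_pos (Finset.mem_of_mem_erase hc)), fun hy c ζ' hc => ?_⟩
        by_cases hc' : (c : ℕ) ∈ S
        · rw [if_pos hc', Option.some.injEq] at hc
          exact hc ▸ hy c (Finset.mem_erase.2 ⟨c.2.ne, hc'⟩)
        · rw [if_neg hc'] at hc
          exact absurd hc (by simp)
      simp only [e] at a5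
      rw [← Finset.card_erase_add_one hjS, pow_succ', mul_assoc]
      refine le_trans ?_ (a5.trans (mul_le_mul_of_nonneg_left a3 (by positivity)))
      refine measureReal_mono (fun y hy => ⟨hsub hy, ?_⟩)
        (ne_top_of_le_ne_top hf (measure_mono inter_subset_left))
      have a6 := hy.2 j hjS
      rwa [Function.update_self] at a6
    · rw [Finset.erase_eq_of_notMem hjS] at a3 hf hsub
      exact (measureReal_mono hsub hf).trans a3

theorem generic (n m : ℕ) : ∃ K : ℝ, 6 ≤ K ∧ ∀ (μ : Measure (E n)) [IsFiniteMeasureOnCompacts μ]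
    (s M : ℝ), 0 < s → K ≤ M → ∃ cell : Fin (m + 1) → E n → E n,
      (∀ c y, dist y (cell c y) ≤ 2 * s) ∧ ∀ (x : E n) (c₀ : Fin (m + 1)),
        (∀ c, c ≠ c₀ → ∃ y, dist y x ≤ 6 * (s / M) ∧ cell c y ≠ cell c x) →
        μ.real (ball x (3 * (s / M))) ≤ (K / M) ^ m * μ.real (ball x (3 * s)) := by
  obtain ⟨D, hD⟩ := exists_net n
  have hQ : (0 : ℝ) ≤ (D * (D + 1) ^ (m + 1) : ℕ) := Nat.cast_nonneg _
  refine ⟨54 * ((D * (D + 1) ^ (m + 1) : ℕ) + 1), by linarith, fun μ _ s M hs hM => ?_⟩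
  obtain ⟨N, hN1, hN2⟩ := hD s hs
  have hM0 : 0 < M := by linarith
  have hJ1 : (⌊M / 27⌋₊ : ℝ) ≤ M / 27 := Nat.floor_le (by positivity)
  have hJ2 : M / 54 ≤ ⌊M / 27⌋₊ := by linarith [Nat.lt_floor_add_one (M / 27)]
  have hJ0 : (0 : ℝ) < ⌊M / 27⌋₊ := lt_of_lt_of_le (by positivity) hJ2
  have hsM : 0 < s / M := by positivity
  have hsM' : 6 * (s / M) ≤ s := by
    rw [← mul_div_assoc, div_le_iff₀ hM0]
    nlinarith
  obtain ⟨ρ, h1, h2⟩ := radii (W := 9 * (s / M)) hs (by positivity) (Nat.cast_pos.1 hJ0)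
    ((mul_le_mul_of_nonneg_left hJ1 (by positivity)).trans (le_of_eq (by field_simp; norm_num)))
    hN2 μ (m + 1) (m + 1) le_rfl
  refine ⟨fun c y => Classical.epsilon fun z => z ∈ N ∧ dist y z < ρ c z, fun c y => ?_,
    fun x c₀ h => ?_⟩
  · obtain ⟨z, a1, a2⟩ := hN1 y
    exact (Classical.epsilon_spec (p := fun z => z ∈ N ∧ dist y z < ρ c z)
      ⟨z, a1, a2.trans_le (h1 c z).1⟩).2.le.trans (h1 c _).2
  have hz : ∀ c : ℕ, ∃ z, c ∈ (Finset.range (m + 1)).erase c₀ →
      z ∈ N ∧ |dist x z - ρ c z| ≤ 6 * (s / M) := fun c => by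
    by_contra hc
    push Not at hc
    obtain ⟨a1, a2⟩ := Finset.mem_erase.1 (hc 0).1
    obtain ⟨y, a3, a4⟩ := h ⟨c, Finset.mem_range.1 a2⟩ fun e => a1 (congrArg Fin.val e)
    refine a4 (congrArg _ (funext fun z => propext (and_congr_right fun a5 => ?_)))
    have a6 := (hc z).2 a5
    have a7 := abs_le.1 ((abs_dist_sub_le y x z).trans a3)
    rcases lt_abs.1 a6 with a8 | a8
    · exact iff_of_false (by show ¬ dist y z < ρ c z; linarith [a7.1])
        (by show ¬ dist x z < ρ c z; linarith)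
    · exact iff_of_true (by show dist y z < ρ c z; linarith [a7.2])
        (by show dist x z < ρ c z; linarith)
  choose ζ hζ using hz
  obtain ⟨z₀, a1, a2⟩ := hN1 x
  have a3 := h2 z₀ a1 _ (Finset.erase_subset _ _) ζ fun c hc => ⟨(hζ c hc).1, by
    linarith [dist_triangle_left (ζ c) z₀ x, (abs_le.1 (hζ c hc).2).2, (h1 c (ζ c)).2]⟩
  rw [Finset.card_erase_of_mem (Finset.mem_range.2 c₀.2), Finset.card_range,
    Nat.add_sub_cancel] at a3
  refine le_trans ?_ (a3.trans
      (mul_le_mul (pow_le_pow_left₀ (by positivity) ?_ m) (measureReal_mono (fun y hy => ?_)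
        measure_ball_lt_top.ne) measureReal_nonneg (by positivity)))
  · refine measureReal_mono (fun y hy => ⟨?_, fun c hc => ?_⟩)
      ((measure_mono inter_subset_left).trans_lt measure_ball_lt_top).ne
    · rw [mem_ball] at hy ⊢
      linarith [dist_triangle y x z₀]
    · have a4 := abs_le.1 (abs_dist_sub_le y x (ζ c))
      have a5 := abs_le.1 (hζ c hc).2
      rw [mem_ball] at hy
      exact abs_le.2 ⟨by linarith [a4.1, a5.1], by linarith [a4.2, a5.2]⟩
  · rw [div_le_div_iff₀ hJ0 hM0]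
    nlinarith
  · rw [mem_ball] at hy ⊢
    linarith [dist_triangle_right y x z₀, dist_triangle y z₀ x, dist_comm x z₀]

end

end Vale.Agent.P210
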