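import Vale.Agent.P210.Met

/-! P210 HRA: splitting of curves and the local lower bound (helper names end with _HRA).
`Joined.split`: induction; for an arc use the intermediate value theorem for `s ↦ ∫ t in 0..s` (continuous on `Icc 0 1`), and the arcs `t ↦ γ (s * t)`, `t ↦ γ (s + (1 - s) * t)`
(`intervalIntegral.smul_integral_comp_mul_add`, `integral_add_adjacent_intervals`).
`Joined.calib`: for an arc, `t ↦ φ (γ t) - φ (γ 0)` against `t ↦ ∫ 0..t + 2 δ t`-type barrier (`image_le_of_liminf_slope_right_lt_deriv_boundary`), or compactness and small steps.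
`dd_low`: `c = min w` on the compact closed ball, `φ z = c * min (dist z x) r`: inside the closed ball `φ` is `c`-Lipschitz and `c ≤ w`, outside it is locally constant. -/

namespace Vale.Agent.P210

open Set Filter Topology Metric MeasureTheory
open scoped ENNReal

noncomputable section

variable {n : ℕ} {Ω : Set (E n)}
  {w : E n → ℝ} {x y : E n} {a : ℝ}

theorem cont_HRA (hD : Dom Ω w) {γ : ℝ → E n} (hγ : ContDiff ℝ 1 γ) :
    ContinuousOn (fun t => sp w (γ t) (deriv γ t)) (γ ⁻¹' Ω) :=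
  (hD.cont.comp hγ.continuous.continuousOn fun _ ht => ht).mul
    (hγ.continuous_deriv le_rfl).norm.continuousOn

theorem int_HRA (hD : Dom Ω w) {γ : ℝ → E n} (hγ : ContDiff ℝ 1 γ) (hm : MapsTo γ (Icc 0 1) Ω)
    {p q : ℝ} (hp : p ∈ Icc (0 : ℝ) 1) (hq : q ∈ Icc (0 : ℝ) 1) :
    IntervalIntegrable (fun t => sp w (γ t) (deriv γ t)) volume p q :=
  ((cont_HRA hD hγ).mono fun _ ht => hm (uIcc_subset_Icc hp hq ht)).intervalIntegrable

theorem der_HRA (hD : Dom Ω w) {γ : ℝ → E n} (hγ : ContDiff ℝ 1 γ) (hm : MapsTo γ (Icc 0 1) Ω)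
    {s : ℝ} (hs : s ∈ Icc (0 : ℝ) 1) :
    HasDerivAt (fun u => ∫ t in (0 : ℝ)..u, sp w (γ t) (deriv γ t))
      (sp w (γ s) (deriv γ s)) s := by
  have ho : IsOpen (γ ⁻¹' Ω) := hD.op.preimage hγ.continuous
  exact intervalIntegral.integral_hasDerivAt_right
    (int_HRA hD hγ hm (left_mem_Icc.2 zero_le_one) hs)
    ((cont_HRA hD hγ).stronglyMeasurableAtFilter ho s (hm hs))
    ((cont_HRA hD hγ).continuousAt (ho.mem_nhds (hm hs)))

theorem sub_HRA {γ : ℝ → E n} (hγ : ContDiff ℝ 1 γ) (hm : MapsTo γ (Icc 0 1) Ω)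
    {p q : ℝ} (hp : 0 ≤ p) (hpq : p ≤ q) (hq : q ≤ 1) :
    Joined Ω (sp w) (γ p) (γ q) (∫ t in p..q, sp w (γ t) (deriv γ t)) := by
  have h1 := Joined.arc (Ω := Ω) (σ := sp w) (fun t => γ ((q - p) * t + p))
    (hγ.comp (by fun_prop)) fun t ht =>
      hm ⟨by nlinarith [ht.1, ht.2], by nlinarith [ht.1, ht.2]⟩
  have h2 : ∀ t, deriv (fun t => γ ((q - p) * t + p)) t =
      (q - p) • deriv γ ((q - p) * t + p) := fun t => by
    have h3 : HasDerivAt (fun t => (q - p) * t + p) (q - p) t := by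
      simpa using ((hasDerivAt_id t).const_mul (q - p)).add_const p
    exact (((hγ.differentiable one_ne_zero) _).hasDerivAt.scomp t h3).deriv
  have h4 := intervalIntegral.smul_integral_comp_mul_add
    (fun t => sp w (γ t) (deriv γ t)) (a := 0) (b := 1) (q - p) p
  simp only [mul_zero, zero_add, mul_one, sub_add_cancel] at h1 h4
  rw [← h4, ← intervalIntegral.integral_smul]
  have h5 : ∀ t, (q - p) • sp w (γ ((q - p) * t + p)) (deriv γ ((q - p) * t + p)) =
      sp w (γ ((q - p) * t + p)) (deriv (fun t => γ ((q - p) * t + p)) t) := fun t => by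
    rw [h2]
    simp only [sp, norm_smul, Real.norm_eq_abs, abs_of_nonneg (sub_nonneg.2 hpq), smul_eq_mul]
    ring
  simp only [h5]
  exact h1

theorem Joined.split (hD : Dom Ω w) (h : Joined Ω (sp w) x y a) {b : ℝ} (h0 : 0 ≤ b) (h1 : b ≤ a) :
    ∃ z, Joined Ω (sp w) x z b ∧ Joined Ω (sp w) z y (a - b) := by
  induction h generalizing b with
  | arc γ hγ hm =>
    have hc : ContinuousOn (fun u => ∫ t in (0 : ℝ)..u, sp w (γ t) (deriv γ t)) (Icc 0 1) :=
      fun s hs => (der_HRA hD hγ hm hs).continuousAt.continuousWithinAt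
    obtain ⟨s, hs, he⟩ := intermediate_value_Icc zero_le_one hc
      (show b ∈ Icc _ _ from ⟨by simpa using h0, h1⟩)
    have h2 := intervalIntegral.integral_add_adjacent_intervals
      (int_HRA hD hγ hm (left_mem_Icc.2 zero_le_one) hs)
      (int_HRA hD hγ hm hs (right_mem_Icc.2 zero_le_one))
    simp only at he
    refine ⟨γ s, he ▸ sub_HRA hγ hm le_rfl hs.1 hs.2, ?_⟩
    rw [← h2, he, add_sub_cancel_left]
    exact sub_HRA hγ hm hs.1 hs.2 le_rfl
  | @trans x y z a₁ a₂ h₁ h₂ ih₁ ih₂ =>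
    rcases le_total b a₁ with hb | hb
    · obtain ⟨v, h3, h4⟩ := ih₁ h0 hb
      refine ⟨v, h3, ?_⟩
      rw [show a₁ + a₂ - b = a₁ - b + a₂ by ring]
      exact h4.trans h₂
    · obtain ⟨v, h3, h4⟩ := ih₂ (b := b - a₁) (by linarith) (by linarith)
      refine ⟨v, ?_, ?_⟩
      · have h5 := h₁.trans h3
        rwa [add_sub_cancel] at h5
      · rwa [show a₁ + a₂ - b = a₂ - (b - a₁) by ring]

theorem Joined.calib (hD : Dom Ω w) {φ : E n → ℝ}
    (hφ : ∀ z ∈ Ω, ∀ᶠ z' in 𝓝 z, |φ z' - φ z| ≤ w z * dist z' z) (h : Joined Ω (sp w) x y a) :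
    φ y - φ x ≤ a := by
  induction h with
  | arc γ hγ hm =>
    have hc : ∀ z ∈ Ω, ContinuousAt φ z := fun z hz => by
      rw [ContinuousAt, tendsto_iff_dist_tendsto_zero]
      refine squeeze_zero' (Eventually.of_forall fun _ => dist_nonneg) (hφ z hz) ?_
      have h1 : Continuous fun z' => w z * dist z' z := by fun_prop
      simpa using h1.tendsto z
    refine image_le_of_liminf_slope_right_le_deriv_boundary
      (f := fun t => φ (γ t) - φ (γ 0)) (a := 0) (b := 1)
      (B := fun u => ∫ t in (0 : ℝ)..u, sp w (γ t) (deriv γ t))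
      (B' := fun s => sp w (γ s) (deriv γ s))
      (fun s hs => (((hc _ (hm hs)).comp hγ.continuous.continuousAt).sub
        continuousAt_const).continuousWithinAt) (by simp)
      (fun s hs => (der_HRA hD hγ hm hs).continuousAt.continuousWithinAt)
      (fun s hs => (der_HRA hD hγ hm (Ico_subset_Icc_self hs)).hasDerivWithinAt)
      (fun s hs r hr => Eventually.frequently ?_) (right_mem_Icc.2 zero_le_one)
    have hs' := hm (Ico_subset_Icc_self hs)
    have h1 := hasDerivAt_iff_tendsto_slope.1 ((hγ.differentiable one_ne_zero) s).hasDerivAt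
    have h2 : Tendsto (fun z => w (γ s) * ‖slope γ s z‖) (𝓝[>] s)
        (𝓝 (sp w (γ s) (deriv γ s))) :=
      (h1.mono_left (nhdsGT_le_nhdsNE s)).norm.const_mul _
    have h3 := (hγ.continuous.tendsto s).eventually (hφ _ hs')
    filter_upwards [h2.eventually (gt_mem_nhds hr), nhdsWithin_le_nhds h3, self_mem_nhdsWithin]
      with z h4 h5 h6
    refine lt_of_le_of_lt ?_ h4
    have h7 : 0 < z - s := sub_pos.2 h6
    rw [slope_def_field, slope_def_module, norm_smul, Real.norm_eq_abs, abs_of_pos (inv_pos.2 h7),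
      div_le_iff₀ h7, ← dist_eq_norm]
    have h8 := (le_abs_self _).trans h5
    have h9 : w (γ s) * ((z - s)⁻¹ * dist (γ z) (γ s)) * (z - s) = w (γ s) * dist (γ z) (γ s) := by
      field_simp
    rw [h9]
    linarith
  | trans _ _ ih₁ ih₂ => linarith

theorem dd_low (hD : Dom Ω w) {r : ℝ} (hr : 0 < r) (hb : closedBall x r ⊆ Ω) :
    ∃ c : ℝ, 0 < c ∧ ∀ y z, ENNReal.ofReal (c * (min (dist z x) r - min (dist y x) r)) ≤ dd Ω w y z := by
  obtain ⟨p, hp, hmin⟩ := (isCompact_closedBall x r).exists_isMinOn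
    ⟨x, mem_closedBall_self hr.le⟩ (hD.cont.mono hb)
  have hc := hD.pos p (hb hp)
  refine ⟨w p, hc, fun y z => le_iInf₂ fun a ha => ENNReal.ofReal_le_ofReal ?_⟩
  rw [mul_sub]
  refine ha.calib hD (φ := fun z => w p * min (dist z x) r) fun v hv => ?_
  by_cases h1 : v ∈ closedBall x r
  · refine Eventually.of_forall fun v' => ?_
    rw [← mul_sub, abs_mul, abs_of_pos hc]
    refine mul_le_mul (hmin h1) ?_ (abs_nonneg _) (hD.pos v hv).le
    refine (abs_min_sub_min_le_max _ _ _ _).trans (max_le (abs_dist_sub_le _ _ _) ?_)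
    simp
  · filter_upwards [isClosed_closedBall.isOpen_compl.mem_nhds h1] with v' h2
    have h3 : r < dist v x := not_le.1 h1
    have h4 : r < dist v' x := not_le.1 h2
    rw [min_eq_right h3.le, min_eq_right h4.le, sub_self, abs_zero]
    exact mul_nonneg (hD.pos v hv).le dist_nonneg

end

end Vale.Agent.P210
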