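import Vale.Agent.P210.Defs

/-! P210 Met: basic facts on the distance (helper names end with _Met).
Induction on `Joined`. `dd_symm`: reverse an arc by `t ↦ γ (1 - t)` (`intervalIntegral.integral_comp_sub_left`). `dd_tri`: `ENNReal.iInf_add`, `add_iInf`, `ofReal_add_le`.
`dd_le_seg0`: the arc `t ↦ y + t • (y' - y)`, `ofReal_integral_eq_lintegral_ofReal`. `dd_loc`: on a small ball inside `Ω` we have `w ≤ w x + ε`.
`dd_open`: `dd_tri` and `dd_loc`. `dd_meas`: `measurable_of_Iio`. `dd_fin`: `{dd < ∞}` and `Ω ∩ {dd = ∞}` are open. -/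

namespace Vale.Agent.P210

open Set Filter Topology Metric MeasureTheory
open scoped ENNReal

noncomputable section

variable {n : ℕ} {Ω : Set (E n)}
  {w : E n → ℝ} {σ : E n → E n → ℝ} {x y z : E n} {a : ℝ}

theorem Joined.mem (h : Joined Ω σ x y a) : x ∈ Ω ∧ y ∈ Ω := by
  induction h with
  | arc γ _ hm => exact ⟨hm (left_mem_Icc.2 zero_le_one), hm (right_mem_Icc.2 zero_le_one)⟩
  | trans _ _ h1 h2 => exact ⟨h1.1, h2.2⟩

theorem Joined.nonneg (hD : Dom Ω w) (h : Joined Ω (sp w) x y a) : 0 ≤ a := by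
  induction h with
  | arc γ _ hm =>
    exact intervalIntegral.integral_nonneg zero_le_one fun t ht =>
      mul_nonneg (hD.pos _ (hm ht)).le (norm_nonneg _)
  | trans _ _ h1 h2 => exact add_nonneg h1 h2

theorem Joined.symm (h : Joined Ω (sp w) x y a) : Joined Ω (sp w) y x a := by
  induction h with
  | arc γ hγ hm =>
    have h1 := Joined.arc (Ω := Ω) (σ := sp w) (fun t => γ (1 - t))
      (hγ.comp (contDiff_const.sub contDiff_id))
      fun t ht => hm ⟨by linarith [ht.2], by linarith [ht.1]⟩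
    have h2 := intervalIntegral.integral_comp_sub_left (a := 0) (b := 1)
      (fun t => sp w (γ t) (deriv γ t)) 1
    simp only [sub_zero, sub_self, deriv_comp_const_sub, sp, norm_neg] at h1 h2 ⊢
    rwa [h2] at h1
  | trans _ _ h1 h2 =>
    rw [add_comm]
    exact h2.trans h1

theorem Joined.le (h : Joined Ω σ x y a) : rdist Ω σ x y ≤ ENNReal.ofReal a := by
  exact iInf₂_le a h

theorem dd_tri (x y z : E n) : rdist Ω σ x z ≤ rdist Ω σ x y + rdist Ω σ y z := by
  exact ENNReal.le_iInf₂_add_iInf₂ fun a ha b hb => (ha.trans hb).le.trans ENNReal.ofReal_add_le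

theorem dd_symm (x y : E n) : dd Ω w x y = dd Ω w y x := by
  exact le_antisymm (le_iInf₂ fun a ha => ha.symm.le) (le_iInf₂ fun a ha => ha.symm.le)

theorem dd_mem (h : rdist Ω σ x y ≠ ∞) : x ∈ Ω ∧ y ∈ Ω := by
  by_contra hc
  exact h (iInf₂_eq_top.2 fun a ha => absurd ha.mem hc)

theorem dd_self (hx : x ∈ Ω) : dd Ω w x x = 0 := by
  have h := (Joined.arc (Ω := Ω) (σ := sp w) (fun _ => x) contDiff_const fun _ _ => hx).le
  simpa [sp] using h

theorem WW_meas (hD : Dom Ω w) : Measurable (WW Ω w) := by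
  classical
  unfold WW
  rw [← piecewise_eq_indicator]
  exact (ENNReal.continuous_ofReal.comp_continuousOn hD.cont).measurable_piecewise
    continuousOn_const hD.op.measurableSet

theorem WW_ne (x : E n) : WW Ω w x ≠ ∞ := by
  unfold WW
  by_cases hx : x ∈ Ω
  · rw [indicator_of_mem hx]
    exact ENNReal.ofReal_ne_top
  · rw [indicator_of_notMem hx]
    exact ENNReal.zero_ne_top

theorem dd_le_seg0 (hD : Dom Ω w) (h : ∀ t ∈ Icc (0 : ℝ) 1, x + t • (y - x) ∈ Ω) :
    dd Ω w x y ≤ seg (WW Ω w) x y := by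
  have hd : ∀ t : ℝ, deriv (fun t : ℝ => x + t • (y - x)) t = y - x := fun t => by
    simpa using (((hasDerivAt_id t).smul_const (y - x)).const_add x).deriv
  have h1 := (Joined.arc (Ω := Ω) (σ := sp w) (fun t : ℝ => x + t • (y - x))
    (contDiff_const.add (contDiff_id.smul contDiff_const)) h).le
  simp only [hd, zero_smul, add_zero, one_smul, add_sub_cancel] at h1
  rw [intervalIntegral.integral_of_le zero_le_one, ← integral_Icc_eq_integral_Ioc] at h1
  refine h1.trans ((Real.ofReal_le_enorm _).trans ((enorm_integral_le_lintegral_enorm _).trans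
    (le_of_eq (setLIntegral_congr_fun measurableSet_Icc fun t ht => ?_))))
  simp only [sp, WW]
  rw [indicator_of_mem (h t ht), enorm_mul, enorm_norm,
    Real.enorm_eq_ofReal (hD.pos _ (h t ht)).le]

theorem dd_loc (hD : Dom Ω w) (hx : x ∈ Ω) {ε : ℝ} (hε : 0 < ε) :
    ∀ᶠ y in 𝓝 x, dd Ω w x y ≤ ENNReal.ofReal ((w x + ε) * dist y x) := by
  have h1 : ∀ᶠ z in 𝓝 x, w z < w x + ε :=
    (hD.cont.continuousAt (hD.op.mem_nhds hx)).eventually (gt_mem_nhds (by linarith))
  obtain ⟨r, hr, hb⟩ := Metric.eventually_nhds_iff_ball.1 (h1.and (hD.op.mem_nhds hx))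
  filter_upwards [ball_mem_nhds x hr] with y hy
  have h2 : ∀ t ∈ Icc (0 : ℝ) 1, x + t • (y - x) ∈ ball x r := fun t ht =>
    (convex_ball x r).add_smul_sub_mem (mem_ball_self hr) hy ht
  refine (dd_le_seg0 hD fun t ht => (hb _ (h2 t ht)).2).trans ?_
  refine (setLIntegral_mono' (g := fun _ => ENNReal.ofReal ((w x + ε) * dist y x))
    measurableSet_Icc fun t ht => ?_).trans (by simp)
  have h3 := hb _ (h2 t ht)
  have h4 : 0 ≤ w x + ε := by linarith [hD.pos x hx]
  unfold WW
  rw [indicator_of_mem h3.2, ENNReal.ofReal_mul h4, dist_eq_norm, ofReal_norm]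
  exact mul_le_mul_left (ENNReal.ofReal_le_ofReal h3.1.le) _

theorem dd_open (hD : Dom Ω w) (x : E n) (c : ℝ≥0∞) : IsOpen {y | dd Ω w x y < c} := by
  refine isOpen_iff_mem_nhds.2 fun y hy => ?_
  have hy' : dd Ω w x y < c := hy
  have h1 : Continuous fun z : E n => dd Ω w x y + ENNReal.ofReal ((w y + 1) * dist z y) :=
    continuous_const.add (ENNReal.continuous_ofReal.comp
      (continuous_const.mul (continuous_id.dist continuous_const)))
  have h2 : dd Ω w x y + ENNReal.ofReal ((w y + 1) * dist y y) < c := by simpa using hy'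
  filter_upwards [h1.continuousAt.eventually (gt_mem_nhds h2),
    dd_loc hD (dd_mem (ne_top_of_lt hy')).2 one_pos] with z h3 h4
  exact ((dd_tri x y z).trans (add_le_add_right h4 _)).trans_lt h3

theorem dd_meas (hD : Dom Ω w) (x : E n) : Measurable (dd Ω w x) := by
  exact measurable_of_Iio fun c => (dd_open hD x c).measurableSet

theorem dd_fin (hD : Dom Ω w) (hc : IsPreconnected Ω) (hx : x ∈ Ω) (hy : y ∈ Ω) :
    dd Ω w x y ≠ ∞ := by
  have h0 : ∀ z ∈ Ω, dd Ω w z z < ∞ := fun z hz => by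
    rw [dd_self hz]
    exact ENNReal.zero_lt_top
  have h1 := hc.subset_left_of_subset_union (dd_open hD x ∞)
    (isOpen_biUnion (s := {z | dd Ω w x z = ∞}) fun z _ => dd_open hD z ∞) ?_ ?_ ⟨x, hx, h0 x hx⟩
  · exact ne_top_of_lt (h1 hy)
  · refine disjoint_left.2 fun p hp hq => ?_
    obtain ⟨z, hz, hq⟩ := mem_iUnion₂.1 hq
    have h2 : dd Ω w p z < ∞ := dd_symm (Ω := Ω) (w := w) z p ▸ hq
    exact ((dd_tri x p z).trans_lt (ENNReal.add_lt_top.2 ⟨hp, h2⟩)).ne hz
  · intro p hp
    by_cases e : dd Ω w x p = ∞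
    · exact Or.inr (mem_iUnion₂.2 ⟨p, e, h0 p hp⟩)
    · exact Or.inl (lt_top_iff_ne_top.2 e)

end

end Vale.Agent.P210
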