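import Vale.Agent.P210.Cost
import Vale.Agent.P210.Met

/-! P210 Young: from the Morrey bound to the costs (helper names end with _Young). For `u ≥ 0`, `0 < t ≤ 1`: `u ^ 4 ≤ t + u ^ 9 / t ^ 2` (if `u ^ 4 > t ≥ t ^ 4` then `u > t`, `u ^ 5 ≥ t ^ 2`); with `u = τ v`:
`v ^ 4 ≤ t / τ ^ 4 + τ ^ 5 v ^ 9 / t ^ 2`. `Measure.addHaar_ball_of_pos`: `vol (ball x r) = ofReal (r ^ n) * vol (ball 0 1)` (`finrank_euclideanSpace_fin`). Every `r > 0` is `τ ^ 4` (`√(√r)`).
`mu S = ∫⁻ in S ∩ Ω, ofReal (v ^ 9)` for measurable `S` (`withDensity_apply`, `Measure.restrict_restrict`); `3 τ ^ 4 ≤ (2 τ) ^ 4`. `lam_young`: `lam_up`.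
`tail_loc`: `w ≤ C` on `closedBall x δ ⊆ Ω`, so by `lam_up` `lam (sc M i) y ≤ C' * sc M i` for `y ∈ ball x (δ / 2)` and `2 sc M i ≤ δ / 2`; induction on `j` (`Int.le_induction`): `H y j + 2 C' sc M j ≤ H y k + 2 C' sc M k`. -/

namespace Vale.Agent.P210

open Set Filter Topology Metric MeasureTheory
open scoped ENNReal

noncomputable section

variable {n : ℕ} {Ω : Set (E n)}
  {v w : E n → ℝ} {A : ℝ}

theorem pt_Young {u t : ℝ} (hu : 0 ≤ u) (ht : 0 < t) (ht1 : t ≤ 1) : u ^ 4 ≤ t + u ^ 9 / t ^ 2 := by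
  rcases le_or_gt (u ^ 4) t with h | h
  · exact h.trans (le_add_of_nonneg_right (by positivity))
  have h1 : t ≤ u := by
    refine le_of_pow_le_pow_left₀ (n := 4) (by norm_num) hu (le_trans ?_ h.le)
    exact pow_le_of_le_one ht.le ht1 (by norm_num)
  have h2 : t ^ 2 ≤ u ^ 5 := by
    have := mul_le_mul h.le h1 ht.le (by positivity)
    nlinarith
  have h3 : u ^ 4 ≤ u ^ 9 / t ^ 2 := by
    rw [le_div_iff₀ (by positivity), show u ^ 9 = u ^ 4 * u ^ 5 by ring]
    exact mul_le_mul_of_nonneg_left h2 (by positivity)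
  linarith

theorem vol_Young (x : E n) {r : ℝ} (hr : 0 < r) :
    volume (ball x r) = ENNReal.ofReal (r ^ n * volume.real (ball (0 : E n) 1)) := by
  rw [Measure.addHaar_ball_of_pos _ x hr, finrank_euclideanSpace_fin,
    ENNReal.ofReal_mul (by positivity), ofReal_measureReal measure_ball_lt_top.ne]

theorem root_Young {r : ℝ} (hr : 0 < r) : ∃ τ : ℝ, 0 < τ ∧ τ ^ 4 = r :=
  ⟨√(√r), by positivity, by
    rw [show 4 = 2 * 2 from rfl, pow_mul, Real.sq_sqrt (Real.sqrt_nonneg r), Real.sq_sqrt hr.le]⟩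

theorem mu_Young (Ω : Set (E n)) (v : E n → ℝ) (x : E n) (r : ℝ) :
    mu Ω v (ball x r) = ∫⁻ y in ball x r ∩ Ω, ENNReal.ofReal (v y ^ 9) := by
  rw [mu, withDensity_apply _ measurableSet_ball, Measure.restrict_restrict measurableSet_ball]

theorem key_Young (hD : Dom Ω v) (x : E n) {r τ t : ℝ} (hr : 0 < r) (hτ : 0 < τ) (ht : 0 < t)
    (ht1 : t ≤ 1) : ∫⁻ y in ball x r, WW Ω (fun x => v x ^ 4) y ≤
      ENNReal.ofReal (t / τ ^ 4 * (r ^ n * volume.real (ball (0 : E n) 1))) +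
        ENNReal.ofReal (τ ^ 5 / t ^ 2) * mu Ω v (ball x r) := by
  have h1 : ∀ y, WW Ω (fun x => v x ^ 4) y ≤ ENNReal.ofReal (t / τ ^ 4) +
      Ω.indicator (fun y => ENNReal.ofReal (τ ^ 5 / t ^ 2) * ENNReal.ofReal (v y ^ 9)) y := by
    intro y
    by_cases hy : y ∈ Ω
    · have h0 := hD.pos y hy
      rw [WW, indicator_of_mem hy, indicator_of_mem hy, ← ENNReal.ofReal_mul (by positivity),
        ← ENNReal.ofReal_add (by positivity) (by positivity)]
      refine ENNReal.ofReal_le_ofReal ?_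
      have h2 := pt_Young (u := τ * v y) (by positivity) ht ht1
      have e : t / τ ^ 4 + τ ^ 5 / t ^ 2 * v y ^ 9 = (t + (τ * v y) ^ 9 / t ^ 2) / τ ^ 4 := by
        field_simp
      rw [e, le_div_iff₀ (by positivity)]
      calc v y ^ 4 * τ ^ 4 = (τ * v y) ^ 4 := by ring
        _ ≤ _ := h2
    · rw [WW, indicator_of_notMem hy]
      exact zero_le
  refine (lintegral_mono h1).trans_eq ?_
  rw [lintegral_add_left measurable_const, setLIntegral_const, vol_Young x hr,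
    ← ENNReal.ofReal_mul (by positivity), lintegral_indicator hD.op.measurableSet,
    Measure.restrict_restrict hD.op.measurableSet, lintegral_const_mul' _ _ ENNReal.ofReal_ne_top,
    mu_Young, inter_comm]

theorem l1b_of_morrey (hA : 0 ≤ A) (hD : Dom Ω v) (hM : Morrey Ω v A) :
    L1b (WW Ω fun x => v x ^ 4) (A + volume.real (ball (0 : E n) 1)) := by
  intro x r hr
  obtain ⟨τ, hτ, rfl⟩ := root_Young hr
  have h0 : 0 ≤ volume.real (ball (0 : E n) 1) := measureReal_nonneg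
  refine (key_Young hD x hr hτ one_pos le_rfl).trans ?_
  rw [mu_Young]
  refine (add_le_add le_rfl (mul_le_mul_right (hM x τ hτ) _)).trans_eq ?_
  rw [← ENNReal.ofReal_mul (by positivity), ← ENNReal.ofReal_add (by positivity) (by positivity),
    pow_mul]
  congr 1
  field_simp
  ring

theorem mu_fin (hM : Morrey Ω v A) : IsFiniteMeasureOnCompacts (mu Ω v) := by
  refine ⟨fun K hK => ?_⟩
  obtain ⟨r, hr, h⟩ := hK.isBounded.subset_ball_lt 0 0
  obtain ⟨τ, hτ, rfl⟩ := root_Young hr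
  refine (measure_mono h).trans_lt ?_
  rw [mu_Young]
  exact (hM 0 τ hτ).trans_lt ENNReal.ofReal_lt_top

theorem mu_ball (hA : 0 ≤ A) (hM : Morrey Ω v A) (x : E n) {τ : ℝ} (hτ : 0 < τ) :
    τ ^ 9 / τ ^ (4 * n) * (mu Ω v).real (ball x (3 * τ ^ 4)) ≤ 16 ^ n * A := by
  have h1 : (mu Ω v).real (ball x (3 * τ ^ 4)) ≤ A * (2 * τ) ^ (4 * n) / (2 * τ) ^ 9 := by
    refine ENNReal.toReal_le_of_le_ofReal (by positivity) ?_
    refine (measure_mono (ball_subset_ball (ε₂ := (2 * τ) ^ 4) ?_)).trans ?_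
    · nlinarith [pow_pos hτ 4]
    · rw [mu_Young]
      exact hM x (2 * τ) (by positivity)
  refine (mul_le_mul_of_nonneg_left h1 (by positivity)).trans ?_
  have e : τ ^ 9 / τ ^ (4 * n) * (A * (2 * τ) ^ (4 * n) / (2 * τ) ^ 9) = 16 ^ n * A / 512 := by
    rw [mul_pow 2 τ (4 * n), pow_mul 2 4 n]
    field_simp
    norm_num
    ring
  rw [e]
  have : 0 ≤ 16 ^ n * A := by positivity
  linarith

theorem lam_young (hD : Dom Ω v) (hM : Morrey Ω v A) (x : E n) {τ t : ℝ} (hτ : 0 < τ)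
    (ht : 0 < t) (ht1 : t ≤ 1) :
    lam (WW Ω fun x => v x ^ 4) (τ ^ 4) x ≤ 2 ^ n * volume.real (ball (0 : E n) 1) * t +
      τ ^ 9 / τ ^ (4 * n) * (mu Ω v).real (ball x (3 * τ ^ 4)) / t ^ 2 := by
  have := mu_fin hM
  have hs : 0 < τ ^ 4 := by positivity
  have h0 : 0 ≤ volume.real (ball (0 : E n) 1) := measureReal_nonneg
  have h1 : 0 ≤ (mu Ω v).real (ball x (3 * τ ^ 4)) := measureReal_nonneg
  have h2 : mu Ω v (ball x (2 * τ ^ 4)) ≤ ENNReal.ofReal ((mu Ω v).real (ball x (3 * τ ^ 4))) := by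
    rw [ofReal_measureReal measure_ball_lt_top.ne]
    exact measure_mono (ball_subset_ball (by linarith))
  have h3 := (lam_up hs x).trans (mul_le_mul_right ((key_Young hD x (r := 2 * τ ^ 4)
    (by positivity) hτ ht ht1).trans (add_le_add le_rfl (mul_le_mul_right h2 _))) _)
  rw [← ENNReal.ofReal_mul (by positivity), ← ENNReal.ofReal_add (by positivity) (by positivity),
    ← ENNReal.ofReal_mul (by positivity), ENNReal.ofReal_le_ofReal_iff (by positivity)] at h3
  refine h3.trans_eq ?_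
  rw [pow_mul, mul_pow 2 (τ ^ 4) n]
  field_simp

theorem tail_loc (hD : Dom Ω w) {M : ℝ} (hM : 2 ≤ M) {H : E n → ℤ → ℝ}
    (hH : ∀ x k, H x (k + 1) = H x k + lam (WW Ω w) (sc M k) x) {x : E n} (hx : x ∈ Ω) :
    ∃ k : ℤ, ∀ᶠ y in 𝓝 x, Tail H y k 1 := by
  obtain ⟨δ, hδ, hs⟩ := nhds_basis_closedBall.mem_iff.1 (hD.op.mem_nhds hx)
  obtain ⟨C, hC⟩ := (isCompact_closedBall x δ).exists_bound_of_continuousOn (hD.cont.mono hs)
  have C0 : 0 ≤ C := (norm_nonneg _).trans (hC x (mem_closedBall_self hδ.le))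
  have h0 : 0 ≤ volume.real (ball (0 : E n) 1) := measureReal_nonneg
  obtain ⟨B, hB, hl⟩ : ∃ B : ℝ, 0 ≤ B ∧ ∀ y ∈ ball x (δ / 2), ∀ s, 0 < s → s ≤ δ / 4 →
      lam (WW Ω w) s y ≤ B * s := by
    refine ⟨C * 2 ^ n * volume.real (ball (0 : E n) 1), by positivity, fun y hy s s0 s1 => ?_⟩
    have h1 : ∫⁻ z in ball y (2 * s), WW Ω w z ≤ ∫⁻ _ in ball y (2 * s), ENNReal.ofReal C := by
      refine setLIntegral_mono' measurableSet_ball fun z hz => ?_
      have hz' : z ∈ closedBall x δ := by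
        have := dist_triangle z y x
        rw [mem_ball] at hy hz
        rw [mem_closedBall]
        linarith
      rw [WW, indicator_of_mem (hs hz')]
      exact ENNReal.ofReal_le_ofReal ((le_abs_self _).trans (hC z hz'))
    have h2 := (lam_up s0 y).trans (mul_le_mul_right h1 _)
    rw [setLIntegral_const, vol_Young y (by positivity), ← ENNReal.ofReal_mul C0,
      ← ENNReal.ofReal_mul (by positivity), ENNReal.ofReal_le_ofReal_iff (by positivity)] at h2
    refine h2.trans_eq ?_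
    rw [mul_pow]
    field_simp
  have M0 : 0 < M := by linarith
  obtain ⟨k, hk⟩ := exists_pow_lt_of_lt_one (lt_min (by positivity : 0 < δ / 4)
    (by positivity : 0 < 1 / (2 * B + 1))) (inv_lt_one_of_one_lt₀ (by linarith : 1 < M))
  have e : M⁻¹ ^ k = sc M k := by rw [sc, zpow_neg, zpow_natCast, inv_pow]
  rw [e, lt_min_iff, lt_div_iff₀ (by positivity : 0 < 2 * B + 1)] at hk
  refine ⟨k, ?_⟩
  filter_upwards [ball_mem_nhds x (half_pos hδ)] with y hy j hj
  have h1 : H y j + 2 * B * sc M j ≤ H y k + 2 * B * sc M k := by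
    induction j, hj using Int.le_induction with
    | base => exact le_rfl
    | succ j hj ih =>
      have s0 := sc_pos M0 j
      have h2 := hl y hy _ s0 ((sc_anti (by linarith) hj).trans hk.1.le)
      have h3 : sc M j / M ≤ sc M j / 2 := div_le_div_of_nonneg_left s0.le two_pos hM
      have h4 := mul_le_mul_of_nonneg_left h3 hB
      rw [hH, sc_succ M0]
      linarith
  have h2 := mul_nonneg hB (sc_pos M0 j).le
  have h3 := sc_pos M0 k
  linarith [hk.2]

end

end Vale.Agent.P210
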