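import Vale.Agent.P210.Defs

/-! P210 Nerve: from a coloured cover to a map into a complex (helper names end with _Nerve). `V = Fin (m + 1) × ι`; faces: all nonempty finsets with at most `m + 1` elements.
On the subtype `Ω` (metrizable, so normal and paracompact) take `PartitionOfUnity.exists_isSubordinate isClosed_univ`; `φ x v = if h : x ∈ Ω then ρ v ⟨x, h⟩ else 0`.
The support at `x` (`PartitionOfUnity.finsupport`, `sum_finsupport`) injects into the colours by `Prod.fst` (`Finset.card_le_card_of_injOn`). `continuousOn_iff_continuous_restrict`, `continuous_pi`;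
local finiteness: `LocallyFinite`, `nhdsWithin_eq_map_subtype_coe` (or `eventually_nhds_subtype`-type lemmas). If `φ x = φ y` pick `v` with `φ x v ≠ 0`: both points lie in `U v`. -/

namespace Vale.Agent.P210

open Set Filter Topology Metric MeasureTheory
open scoped ENNReal

noncomputable section

variable {n : ℕ} {Ω : Set (E n)}

theorem nerve {m : ℕ} {ι : Type} {U : Fin (m + 1) → ι → Set (E n)} (h1 : ∀ c i, IsOpen (U c i))
    (h2 : ∀ c i j x, x ∈ U c i → x ∈ U c j → i = j) (h3 : ∀ x ∈ Ω, ∃ c i, x ∈ U c i)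
    {ρ : E n → E n → ℝ≥0∞} {C : ℝ}
    (h4 : ∀ c i, ∀ x ∈ Ω, ∀ y ∈ Ω, x ∈ U c i → y ∈ U c i → ρ x y ≤ ENNReal.ofReal C) :
    WidthLe Ω ρ m C := by
  classical
  obtain ⟨f, hf⟩ := PartitionOfUnity.exists_isSubordinate (X := Ω) isClosed_univ
    (fun v : Fin (m + 1) × ι => Subtype.val ⁻¹' U v.1 v.2)
    (fun v => (h1 v.1 v.2).preimage continuous_subtype_val) fun x _ => by
      obtain ⟨c, i, h⟩ := h3 x x.2
      exact mem_iUnion.2 ⟨(c, i), h⟩
  have hU : ∀ (v : Fin (m + 1) × ι) (x : Ω), f v x ≠ 0 → (x : E n) ∈ U v.1 v.2 := fun v x h =>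
    hf v (subset_tsupport _ h)
  obtain ⟨φ, hφ⟩ : ∃ φ : E n → Fin (m + 1) × ι → ℝ, ∀ (x : Ω) v, φ x v = f v x :=
    ⟨fun x v => if h : x ∈ Ω then f v ⟨x, h⟩ else 0, fun x v => dif_pos x.2⟩
  refine ⟨Fin (m + 1) × ι, ⟨{s | s.Nonempty ∧ s.card ≤ m + 1}, fun s hs =>
    ⟨hs.1, fun t ht h0 => ⟨h0, (Finset.card_le_card ht).trans hs.2⟩⟩⟩, φ, fun s hs => hs.2,
    fun x hx => ⟨fun v => ?_, f.finsupport ⟨x, hx⟩, ⟨?_, ?_⟩, fun v hv => ?_, ?_⟩, ?_,
    fun x hx => ⟨f.fintsupport ⟨x, hx⟩, ?_⟩, fun x hx y hy e => ?_⟩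
  · rw [hφ ⟨x, hx⟩]
    exact f.nonneg _ _
  · obtain ⟨v, hv⟩ := f.exists_pos (mem_univ ⟨x, hx⟩)
    exact ⟨v, (f.mem_finsupport _).2 hv.ne'⟩
  · refine (Finset.card_le_card_of_injOn (t := Finset.univ) Prod.fst (fun _ _ => Finset.mem_univ _)
      fun v hv w hw e => ?_).trans (by simp)
    have a := hU v _ ((f.mem_finsupport _).1 hv)
    have b := hU w _ ((f.mem_finsupport _).1 hw)
    rw [← e] at b
    exact Prod.ext e (h2 _ _ _ _ a b)
  · rw [hφ ⟨x, hx⟩]
    by_contra h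
    exact hv ((f.mem_finsupport _).2 h)
  · rw [← f.sum_finsupport (mem_univ ⟨x, hx⟩)]
    exact Finset.sum_congr rfl fun v _ => hφ ⟨x, hx⟩ v
  · refine continuousOn_iff_continuous_domRestrict.2 (continuous_pi fun v => ?_)
    exact (f v).continuous.congr fun x => (hφ x v).symm
  · rw [nhdsWithin_eq_map_subtype_coe hx, eventually_map]
    filter_upwards [f.eventually_finsupport_subset ⟨x, hx⟩] with y hy v hv
    rw [hφ]
    by_contra h
    exact hv (hy ((f.mem_finsupport _).2 h))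
  · obtain ⟨v, hv⟩ := f.exists_pos (mem_univ ⟨x, hx⟩)
    refine h4 v.1 v.2 x hx y hy (hU v ⟨x, hx⟩ hv.ne') (hU v ⟨y, hy⟩ ?_)
    rw [← hφ ⟨y, hy⟩, ← e, hφ ⟨x, hx⟩]
    exact hv.ne'

end

end Vale.Agent.P210
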