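import Vale.Agent.P210.Scal
import Vale.Agent.P210.HR
import Vale.Agent.P210.Mor
import Vale.Agent.P210.Young
import Vale.Agent.P210.Chain
import Vale.Agent.P210.Gen
import Vale.Agent.P210.Cover
import Vale.Agent.P210.Nerve

/-! P210 Main: assembly (owner helper28). -/

namespace Vale.Agent.P210

open Set Filter Topology Metric MeasureTheory
open scoped ContDiff

noncomputable section

theorem decay_Main {X l h : ℤ → ℝ} {a b : ℝ} {k : ℤ} (ha : 0 ≤ a) (hb : 0 ≤ b) (h0 : X k ≤ b)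
    (h1 : ∀ i, k ≤ i → X (i + 1) ≤ X i / 8)
    (h2 : ∀ i t, 0 < t → t ≤ 1 → l i ≤ a * t + X i / t ^ 2) (h3 : ∀ i, h (i + 1) = h i + l i)
    (j : ℤ) (hj : k ≤ j) : h j ≤ h k + 2 * (a + b) := by
  have key : ∀ i, k ≤ i → ∃ t : ℝ, 0 < t ∧ t ≤ 1 ∧ X i ≤ b * t ^ 3 ∧
      h i + 2 * (a + b) * t ≤ h k + 2 * (a + b) := by
    intro i hi
    induction i, hi using Int.leInduction with
    | base => exact ⟨1, one_pos, le_rfl, by simpa using h0, by simp⟩
    | succ i hi ih =>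
      obtain ⟨t, t0, t1, hX, hh⟩ := ih
      refine ⟨t / 2, by positivity, by linarith, ?_, ?_⟩
      · have := h1 i hi
        linarith
      · have h4 : X i / t ^ 2 ≤ b * t := by
          rw [div_le_iff₀ (by positivity)]
          linarith
        have h5 := h2 i t t0 t1
        rw [h3]
        linarith
  obtain ⟨t, t0, -, -, hh⟩ := key j hj
  have : 0 ≤ 2 * (a + b) * t := by positivity
  linarith

theorem Hgt.weaken {n : ℕ} {M A A' : ℝ} {H : E n → ℤ → ℝ} (hM : 0 < M) (h : Hgt M A H)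
    (hA : A ≤ A') : Hgt M A' H :=
  ⟨h.mono, fun x k => (h.step x k).trans (by linarith), fun x y k => (h.lip x y k).trans
    (div_le_div_of_nonneg_right (mul_le_mul_of_nonneg_right hA dist_nonneg) (sc_pos hM k).le)⟩

theorem core (m : ℕ) (hm : 1 ≤ m) {A : ℝ} (hA : 0 ≤ A) : ∃ C : ℝ,
    ∀ (Ω : Set (E (m + 2))) (v : E (m + 2) → ℝ), Dom Ω v → (Proper Ω fun x => v x ^ 4) →
      Morrey Ω v A → WidthLe Ω (dd Ω fun x => v x ^ 4) m C := by
  obtain ⟨K, hK, hG⟩ := generic (m + 2) m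
  obtain ⟨T, hT1, hT2⟩ : ∃ T : ℝ, K ≤ T ∧ 8 * K ^ m ≤ T := ⟨max _ _, le_max_left _ _, le_max_right _ _⟩
  have T1 : 1 ≤ T := by linarith
  have T0 : 0 < T := by linarith
  have hM : K ≤ T ^ 4 := hT1.trans (le_self_pow₀ T1 (by norm_num))
  have hM2 : 2 ≤ T ^ 4 := by linarith
  have hM0 : 0 < T ^ 4 := by positivity
  obtain ⟨κ, hκ⟩ : ∃ κ, κ = volume.real (ball (0 : E (m + 2)) 1) := ⟨_, rfl⟩
  have κ0 : 0 ≤ κ := hκ ▸ measureReal_nonneg
  obtain ⟨C, hC, hch⟩ := chain (m + 2) hM2 (add_nonneg hA κ0)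
  obtain ⟨B, hB⟩ : ∃ B : ℝ, B = 1 + 2 ^ (m + 2) * (A + κ) +
    2 * (2 ^ (m + 2) * κ + 16 ^ (m + 2) * A) := ⟨_, rfl⟩
  have p1 : 0 ≤ 2 ^ (m + 2) * (A + κ) := by positivity
  have p2 : 0 ≤ 2 * (2 ^ (m + 2) * κ + 16 ^ (m + 2) * A) := by positivity
  refine ⟨C * (1 + (22 * (m + 1) + 9) * B), fun Ω v hD hP hMo => ?_⟩
  have hD4 : Dom Ω fun x => v x ^ 4 := ⟨hD.op, hD.cont.pow 4, fun x hx => pow_pos (hD.pos x hx) 4⟩
  have hL := l1b_of_morrey hA hD hMo
  rw [← hκ] at hL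
  have hs := sc_pos hM0
  obtain ⟨H, hH, hH'⟩ := exists_H (A := 2 ^ (m + 2) * (A + κ)) hM2
    (l := fun k x => lam (WW Ω fun x => v x ^ 4) (sc (T ^ 4) k) x)
    (fun k x => lam_nonneg (hs k) x) (fun k x => lam_le (add_nonneg hA κ0) hL (hs k) x)
    fun k x y => lam_lip (WW_meas hD4) (add_nonneg hA κ0) hL (hs k) x y
  have := mu_fin hMo
  choose cell hc1 hc2 using fun k : ℤ => hG (mu Ω v) (sc (T ^ 4) k) (T ^ 4) (hs k) hM
  have hτ : ∀ k : ℤ, sc (T ^ 4) k = sc T k ^ 4 := fun k => by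
    rw [sc, sc, ← zpow_natCast, ← zpow_natCast, ← zpow_mul, ← zpow_mul, mul_comm]
  have hdec : ∀ x k c₀, (∀ c, c ≠ c₀ → ∀ i, k ≤ i → ¬ Safe (T ^ 4) (fun k => cell k c) i x) →
      Tail H x k B := by
    intro x k c₀ hx j hj
    refine (decay_Main (X := fun i => sc T i ^ 9 / sc T i ^ (4 * (m + 2)) *
      (mu Ω v).real (ball x (3 * sc T i ^ 4))) (a := 2 ^ (m + 2) * κ) (b := 16 ^ (m + 2) * A)
      (by positivity) (by positivity) (mu_ball hA hMo x (sc_pos T0 k)) (fun i hi => ?_)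
      (fun i t t0 t1 => ?_) (hH' x) j hj).trans (by linarith)
    · have h1 := hc2 i x c₀ fun c hc => by
        have h2 := hx c hc i hi
        rw [Safe, sc_succ hM0] at h2
        push Not at h2
        exact h2
      rw [← sc_succ hM0, hτ, hτ] at h1
      have t0 := sc_pos T0 i
      have h3 : 0 ≤ (mu Ω v).real (ball x (3 * sc T i ^ 4)) := measureReal_nonneg
      refine (mul_le_mul_of_nonneg_left h1 (by have := sc_pos T0 (i + 1); positivity)).trans ?_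
      have h4 : sc T (i + 1) ^ 9 / sc T (i + 1) ^ (4 * (m + 2)) * (K / T ^ 4) ^ m =
          sc T i ^ 9 / sc T i ^ (4 * (m + 2)) * (K ^ m / T) := by
        simp only [sc_succ T0, div_pow]
        field_simp
        ring
      have h5 : K ^ m / T ≤ 1 / 8 := by
        rw [div_le_iff₀ T0]
        linarith
      rw [← mul_assoc, h4, mul_right_comm, div_eq_mul_one_div _ (8 : ℝ)]
      exact mul_le_mul_of_nonneg_left h5 (by positivity)
    · rw [hτ, hκ]
      exact lam_young hD hMo x (sc_pos T0 i) t0 t1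
  obtain ⟨ι, U, u1, u2, u3, u4⟩ := cover (Ω := Ω) hm hM2 (A := B) (by linarith)
    (hH.weaken hM0 (by linarith)) (cell := fun c k => cell k c) (fun c k y => hc1 k c y)
    hdec fun x hx => tail_loc hD4 hM2 hH' hx
  refine nerve u1 u2 u3 fun c i x hx y hy hx' hy' => ?_
  obtain ⟨k, k1, k2, k3⟩ := u4 c i x hx' y hy'
  exact hch Ω _ hD4 hP hL H hH' x hx y hy k _ k1 k2 k3

theorem main (n : ℕ) (hn : 3 ≤ n) : ∃ C : ℝ, ∀ (Ω : Set (E n)) (f : E n → ℝ), IsOpen Ω →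
    IsConnected Ω → ContDiffOn ℝ ∞ f Ω → Complete Ω (speed (conf f)) →
    (∀ x ∈ Ω, 1 ≤ scal (conf f) x) → WidthLe Ω (rdist Ω (speed (conf f))) (n - 2) C := by
  obtain ⟨m, rfl⟩ : ∃ m, n = m + 2 := ⟨n - 2, by omega⟩
  obtain ⟨A, hA, hMo⟩ := morrey hn
  obtain ⟨C, hC⟩ := core m (by omega) hA.le
  refine ⟨C, fun Ω f hΩ hc hf hco hS => ?_⟩
  have hf2 : ContDiffOn ℝ 2 f Ω := hf.of_le P098.calc_le2
  have e : (fun x => Real.exp (f x)) = fun x => Real.exp (f x / 4) ^ 4 := funext fun x => by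
    rw [← Real.exp_nat_mul]
    congr 1
    push_cast
    ring
  rw [speed_conf] at hco ⊢
  have hP := proper_of_complete ⟨hΩ, hf.continuousOn.rexp, fun x _ => Real.exp_pos _⟩ hco
  have h1 := hMo Ω f hΩ hc.isPreconnected hf2 hP fun x hx => by
    have h2 := hS x hx
    rw [scal_conf (hf2.contDiffAt (hΩ.mem_nhds hx))] at h2
    have h3 := mul_le_mul_of_nonneg_left h2 (Real.exp_pos (2 * f x)).le
    have h4 : Real.exp (2 * f x) * Real.exp (-2 * f x) = 1 := by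
      rw [← Real.exp_add]
      simp
    calc _ = Real.exp (2 * f x) * 1 := (mul_one _).symm
      _ ≤ _ := h3
      _ = _ := by linear_combination (-(((m + 2 : ℕ) : ℝ) - 1) * (2 * P098.lap f x +
          (((m + 2 : ℕ) : ℝ) - 2) * ‖fderiv ℝ f x‖ ^ 2)) * h4
  rw [e] at hP ⊢
  exact hC Ω _ ⟨hΩ, (hf.continuousOn.div_const 4).rexp, fun x _ => Real.exp_pos _⟩ hP h1

end

end Vale.Agent.P210
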