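import Vale.Agent.P210.Defs

/-! P210 Net: nets and the pigeonhole principle (helper names end with _Net).
`exists_net`: `N = {z | ∀ i, ∃ k : ℤ, z i = s / (n + 1) * k}`; rounding down moves each coordinate by less than `s / (n + 1)` (`EuclideanSpace.dist_eq`); the points near `x` are images of
`Fintype.piFinset fun i => Finset.Icc (a i - 10 (n + 1) - 1) (a i + 10 (n + 1) + 1)`, `a i = ⌊x i (n + 1) / s⌋`.
`pigeon`: the `J` strips around `ρ i = s + 3 W i` are disjoint, so `∑ i, μ (T ∩ strip i) ≤ μ T`; sum `μ (T ∩ strip i) / μ T` over `T ∈ F` and `i < J` is at most `Q`; `Finset.exists_le_of_sum_le`. -/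

namespace Vale.Agent.P210

open Set Filter Topology Metric MeasureTheory
open scoped ENNReal

noncomputable section

variable {n : ℕ} {Ω : Set (E n)}

theorem exists_net (n : ℕ) : ∃ D : ℕ, ∀ s : ℝ, 0 < s → ∃ N : Set (E n),
    (∀ x, ∃ z ∈ N, dist x z < s) ∧
    ∀ x, ∃ t : Finset (E n), t.card ≤ D ∧ ∀ z ∈ N, dist z x ≤ 10 * s → z ∈ t := by
  classical
  refine ⟨(20 * (n + 1) + 3) ^ n, fun s hs => ?_⟩
  obtain ⟨δ, hδ, rfl⟩ : ∃ δ : ℝ, 0 < δ ∧ s = (n + 1) * δ :=
    ⟨s / (n + 1), by positivity, by field_simp⟩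
  refine ⟨{z | ∀ i, ∃ k : ℤ, z i = δ * k}, fun x => ?_, fun x => ?_⟩
  · refine ⟨WithLp.toLp 2 fun i => δ * ⌊x i / δ⌋, fun i => ⟨_, rfl⟩, ?_⟩
    rw [EuclideanSpace.dist_eq, Real.sqrt_lt' hs]
    have h1 : ∀ i, dist (x i) (δ * ⌊x i / δ⌋) ^ 2 ≤ δ ^ 2 := fun i => by
      have a1 := (le_div_iff₀ hδ).1 (Int.floor_le (x i / δ))
      have a2 := (div_lt_iff₀ hδ).1 (Int.lt_floor_add_one (x i / δ))
      rw [Real.dist_eq, sq_abs]
      exact pow_le_pow_left₀ (by linarith) (by linarith) 2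
    have h2 := Finset.sum_le_card_nsmul Finset.univ _ _ fun i _ => h1 i
    rw [Finset.card_univ, Fintype.card_fin, nsmul_eq_mul] at h2
    refine h2.trans_lt ?_
    have h3 : (0 : ℝ) ≤ n := n.cast_nonneg
    nlinarith [mul_nonneg (mul_nonneg h3 h3) (sq_nonneg δ), mul_nonneg h3 (sq_nonneg δ),
      pow_pos hδ 2]
  · refine ⟨(Fintype.piFinset fun i => Finset.Icc (⌊x i / δ⌋ - (10 * (n + 1) + 1))
      (⌊x i / δ⌋ + (10 * (n + 1) + 1))).image fun k => WithLp.toLp 2 fun i => δ * (k i : ℝ),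
      Finset.card_image_le.trans ?_, fun z hz hd => ?_⟩
    · rw [Fintype.card_piFinset]
      refine (Finset.prod_le_pow_card _ _ (20 * (n + 1) + 3) fun i _ => ?_).trans (by simp)
      rw [Int.card_Icc]
      omega
    · choose k hk using hz
      refine Finset.mem_image.2 ⟨k, Fintype.mem_piFinset.2 fun i => ?_, ?_⟩
      · have a1 := (le_div_iff₀ hδ).1 (Int.floor_le (x i / δ))
        have a2 := (div_lt_iff₀ hδ).1 (Int.lt_floor_add_one (x i / δ))
        have a3 := (PiLp.dist_apply_le z x i).trans hd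
        rw [Real.dist_eq, hk, abs_le] at a3
        rw [Finset.mem_Icc, ← Int.cast_le (R := ℝ), ← Int.cast_le (R := ℝ)]
        push_cast
        exact ⟨le_of_mul_le_mul_left (by linarith [a3.1]) hδ,
          le_of_mul_le_mul_left (by linarith [a3.2]) hδ⟩
      · ext i
        exact (hk i).symm

theorem pigeon (μ : Measure (E n)) {ι : Type} (F : Finset ι) (T : ι → Set (E n))
    (hT : ∀ i ∈ F, MeasurableSet (T i) ∧ μ (T i) ≠ ∞) {Q J : ℕ} (hQ : F.card ≤ Q) (hJ : 0 < J)
    {s W : ℝ} (hW : 0 < W) (h : 3 * W * J ≤ s) (z : E n) :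
    ∃ ρ ∈ Icc s (2 * s), ∀ i ∈ F,
      μ.real (T i ∩ {y | |dist y z - ρ| ≤ W}) ≤ Q / J * μ.real (T i) := by
  let St : ℕ → Set (E n) := fun j => {y | |dist y z - (s + 3 * W * j)| ≤ W}
  have m1 : ∀ j, MeasurableSet (St j) := fun j =>
    (isClosed_le (by fun_prop) continuous_const).measurableSet
  have d1 : ∀ j k : ℕ, j < k → Disjoint (St j) (St k) := fun j k hjk =>
    Set.disjoint_left.2 fun y a1 a2 => by
      have a3 : (j : ℝ) + 1 ≤ k := by exact_mod_cast hjk
      have a4 := (abs_le.1 (mem_ofPred.1 a1)).2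
      have a5 := (abs_le.1 (mem_ofPred.1 a2)).1
      nlinarith
  have h1 : ∀ i ∈ F, ∑ j ∈ Finset.range J, μ.real (T i ∩ St j) / μ.real (T i) ≤ 1 := fun i hi => by
    rw [← Finset.sum_div]
    refine div_le_one_of_le₀ ?_ measureReal_nonneg
    rw [← measureReal_biUnion_finset (fun j _ k _ e => ?_) (fun j _ => (hT i hi).1.inter (m1 j))
      fun j _ => ne_top_of_le_ne_top (hT i hi).2 (measure_mono inter_subset_left)]
    · exact measureReal_mono (iUnion₂_subset fun _ _ => inter_subset_left) (hT i hi).2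
    · refine Disjoint.mono inter_subset_right inter_subset_right ?_
      rcases lt_or_gt_of_ne e with e | e
      exacts [d1 j k e, (d1 k j e).symm]
  have J0 : (0 : ℝ) < J := by exact_mod_cast hJ
  obtain ⟨j, hj, h2⟩ := Finset.exists_le_of_sum_le (Finset.nonempty_range_iff.2 hJ.ne')
    (f := fun j => ∑ i ∈ F, μ.real (T i ∩ St j) / μ.real (T i)) (g := fun _ => (Q / J : ℝ)) (by
      rw [Finset.sum_comm, Finset.sum_const, Finset.card_range, nsmul_eq_mul,
        mul_div_cancel₀ _ J0.ne']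
      refine (Finset.sum_le_card_nsmul _ _ _ h1).trans ?_
      rw [nsmul_eq_mul, mul_one]
      exact_mod_cast hQ)
  have a1 : (j : ℝ) ≤ J := by exact_mod_cast (Finset.mem_range.1 hj).le
  have a2 : (0 : ℝ) ≤ j := j.cast_nonneg
  refine ⟨s + 3 * W * j, ⟨by nlinarith, by nlinarith⟩, fun i hi => ?_⟩
  have h3 := (Finset.single_le_sum (f := fun i => μ.real (T i ∩ St j) / μ.real (T i))
    (fun i _ => div_nonneg measureReal_nonneg measureReal_nonneg) hi).trans h2
  rcases (measureReal_nonneg (μ := μ) (s := T i)).eq_or_lt with e | e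
  · rw [← e, mul_zero, e]
    exact measureReal_mono inter_subset_left (hT i hi).2
  · exact (div_le_iff₀ e).1 h3

end

end Vale.Agent.P210
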