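import Mathlib

/-! P210 Stmt: the definitions used in the statement. FROZEN. -/

namespace Vale.Agent.P210

open Set Filter Topology
open scoped ENNReal

noncomputable section

/-- Euclidean space. -/
abbrev E (n : ℕ) : Type := EuclideanSpace ℝ (Fin n)

variable {n : ℕ}

/-- Derivative in the coordinate direction `i`. -/
def pd (i : Fin n) (u : E n → ℝ) (x : E n) : ℝ := fderiv ℝ u x (EuclideanSpace.single i 1)

/-- Christoffel symbols `Γ^k_{ij}` of the metric with coefficient matrix `g`. -/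
def chr (g : E n → Matrix (Fin n) (Fin n) ℝ) (k i j : Fin n) (x : E n) : ℝ :=
  (1 / 2) * ∑ l, (g x)⁻¹ k l *
    (pd i (fun y => g y j l) x + pd j (fun y => g y i l) x - pd l (fun y => g y i j) x)

/-- Ricci tensor `R_{ij}`. -/
def ric (g : E n → Matrix (Fin n) (Fin n) ℝ) (i j : Fin n) (x : E n) : ℝ :=
  ∑ k, (pd k (chr g k i j) x - pd j (chr g k i k) x +
    ∑ l, (chr g k k l x * chr g l i j x - chr g k j l x * chr g l i k x))

/-- Scalar curvature `g^{ij} R_{ij}`. -/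
def scal (g : E n → Matrix (Fin n) (Fin n) ℝ) (x : E n) : ℝ :=
  ∑ i, ∑ j, (g x)⁻¹ i j * ric g i j x

/-- The conformally flat metric `e^{2f} δ_{ij}`. -/
def conf (f : E n → ℝ) (x : E n) : Matrix (Fin n) (Fin n) ℝ :=
  Real.exp (2 * f x) • (1 : Matrix (Fin n) (Fin n) ℝ)

/-- The length of the tangent vector `v` at `x`. -/
def speed (g : E n → Matrix (Fin n) (Fin n) ℝ) (x v : E n) : ℝ :=
  √(∑ i, ∑ j, g x i j * v i * v j)

/-- There is a piecewise `C^1` curve in `Ω` from `x` to `y` of length `a`, where `σ x v` is the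
length of the tangent vector `v` at `x`. -/
inductive Joined (Ω : Set (E n)) (σ : E n → E n → ℝ) : E n → E n → ℝ → Prop
  | arc (γ : ℝ → E n) : ContDiff ℝ 1 γ → MapsTo γ (Icc 0 1) Ω →
      Joined Ω σ (γ 0) (γ 1) (∫ t in (0 : ℝ)..1, σ (γ t) (deriv γ t))
  | trans {x y z : E n} {a b : ℝ} : Joined Ω σ x y a → Joined Ω σ y z b → Joined Ω σ x z (a + b)

/-- The Riemannian distance: infimum of the lengths of curves in `Ω`. -/
def rdist (Ω : Set (E n)) (σ : E n → E n → ℝ) (x y : E n) : ℝ≥0∞ :=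
  ⨅ (a : ℝ) (_ : Joined Ω σ x y a), ENNReal.ofReal a

/-- Every Cauchy sequence for the Riemannian distance converges in `Ω`. -/
def Complete (Ω : Set (E n)) (σ : E n → E n → ℝ) : Prop :=
  ∀ u : ℕ → E n, (∀ i, u i ∈ Ω) →
    (∀ ε : ℝ≥0∞, 0 < ε → ∃ N, ∀ i ≥ N, ∀ j ≥ N, rdist Ω σ (u i) (u j) < ε) →
      ∃ p ∈ Ω, Tendsto (fun i => rdist Ω σ (u i) p) atTop (𝓝 0)

/-- The geometric realization of `K` in barycentric coordinates. -/
def realization {V : Type} (K : PreAbstractSimplicialComplex V) : Set (V → ℝ) :=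
  {p | (∀ v, 0 ≤ p v) ∧ ∃ s ∈ K.faces, (∀ v, v ∉ s → p v = 0) ∧ ∑ v ∈ s, p v = 1}

/-- There is a map from `Ω` to a simplicial complex of dimension at most `d`, with continuous
barycentric coordinates, locally involving finitely many vertices, whose fibres have diameter at
most `C` for the distance `ρ`. -/
def WidthLe (Ω : Set (E n)) (ρ : E n → E n → ℝ≥0∞) (d : ℕ) (C : ℝ) : Prop :=
  ∃ (V : Type) (K : PreAbstractSimplicialComplex V) (φ : E n → V → ℝ),
    (∀ s ∈ K.faces, s.card ≤ d + 1) ∧ MapsTo φ Ω (realization K) ∧ ContinuousOn φ Ω ∧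
    (∀ x ∈ Ω, ∃ t : Finset V, ∀ᶠ y in 𝓝[Ω] x, ∀ v, v ∉ t → φ y v = 0) ∧
    ∀ x ∈ Ω, ∀ y ∈ Ω, φ x = φ y → ρ x y ≤ ENNReal.ofReal C

end

end Vale.Agent.P210
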